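import Vale.Agent.P192.R2.H360.Defs

set_option linter.all false

/-! Product systems over cycles and lines: lifts to the grid. -/

namespace Vale.Agent.P192.R2.H102

open Vale.Agent.P192.R2.H360

variable {A B : Type} {M : ℕ}

theorem run_cons (δ : Fin M × Bool → A → B → ℤ × ℤ) (a : ℤ → A) (b : ℤ → B)
    (l : Fin M × Bool) (w : List (Fin M × Bool)) (z : ℤ × ℤ) :
    run δ a b (l :: w) z = act δ a b l (run δ a b w z) := rfl

theorem run_bd {C : ℤ} {δ : Fin M × Bool → A → B → ℤ × ℤ}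
    (h : ∀ l α β, |(δ l α β).1| ≤ C ∧ |(δ l α β).2| ≤ C) (a : ℤ → A) (b : ℤ → B)
    (w : List (Fin M × Bool)) (z : ℤ × ℤ) :
    |(run δ a b w z).1 - z.1| ≤ C * w.length ∧ |(run δ a b w z).2 - z.2| ≤ C * w.length := by
  induction w with
  | nil => simp [run]
  | cons l w ih =>
    rw [run_cons]
    have h1 := h l (a (run δ a b w z).1) (b (run δ a b w z).2)
    set q := run δ a b w z with hq
    simp only [act, Prod.fst_add, Prod.snd_add, List.length_cons, Nat.cast_add, Nat.cast_one,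
      mul_add, mul_one]
    constructor
    · have e : q.1 + (δ l (a q.1) (b q.2)).1 - z.1 = (q.1 - z.1) + (δ l (a q.1) (b q.2)).1 := by
        ring
      rw [e]
      exact (abs_add_le _ _).trans (add_le_add ih.1 h1.1)
    · have e : q.2 + (δ l (a q.1) (b q.2)).2 - z.2 = (q.2 - z.2) + (δ l (a q.1) (b q.2)).2 := by
        ring
      rw [e]
      exact (abs_add_le _ _).trans (add_le_add ih.2 h1.2)

/-- a word as a path which rests at its end -/
theorem path_of_word (δ : Fin M × Bool → A → B → ℤ × ℤ) (a : ℤ → A) (b : ℤ → B)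
    (w : List (Fin M × Bool)) (z : ℤ × ℤ) :
    ∃ x y : ℕ → ℤ, x 0 = z.1 ∧ y 0 = z.2 ∧
      (∀ k, (x (k + 1), y (k + 1)) = (x k, y k) ∨
        ∃ l, (x (k + 1), y (k + 1)) = act δ a b l (x k, y k)) ∧
      ∀ n, w.length ≤ n → (x n, y n) = run δ a b w z := by
  induction w with
  | nil => exact ⟨fun _ => z.1, fun _ => z.2, rfl, rfl, fun k => Or.inl rfl, fun n _ => rfl⟩
  | cons l w ih =>
    obtain ⟨x, y, hx, hy, hs, he⟩ := ih
    refine ⟨fun k => if k ≤ w.length then x k else (run δ a b (l :: w) z).1,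
      fun k => if k ≤ w.length then y k else (run δ a b (l :: w) z).2, by simp [hx], by simp [hy],
      ?_, ?_⟩
    · intro k
      rcases lt_trichotomy k w.length with h | h | h
      · have h1 : k + 1 ≤ w.length := h
        simp only [if_pos h1, if_pos h.le]
        exact hs k
      · right
        refine ⟨l, ?_⟩
        have h1 : ¬ (k + 1 ≤ w.length) := by omega
        simp only [if_neg h1, if_pos h.le, Prod.mk.eta]
        rw [run_cons, ← he k h.ge]
      · left
        have h1 : ¬ (k + 1 ≤ w.length) := by omega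
        have h2 : ¬ (k ≤ w.length) := by omega
        simp only [if_neg h1, if_neg h2]
    · intro n hn
      have h2 : ¬ (n ≤ w.length) := by
        rw [List.length_cons] at hn; omega
      simp only [if_neg h2, Prod.mk.eta]

/-- the covering map of the grid -/
def pr {U V : Type} (T₁ : Equiv.Perm U) (T₂ : Equiv.Perm V) (u : U) (v : V) (z : ℤ × ℤ) : U × V :=
  ((T₁ ^ z.1) u, (T₂ ^ z.2) v)

section sys

variable {U V : Type} (T₁ : Equiv.Perm U) (T₂ : Equiv.Perm V)
  (δ : Fin M × Bool → A → B → ℤ × ℤ) (a : U → A) (b : V → B)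
  (τ : Fin M × Bool → Equiv.Perm (U × V))

theorem pr_run
    (hτ : ∀ l u v, τ l (u, v) = ((T₁ ^ (δ l (a u) (b v)).1) u, (T₂ ^ (δ l (a u) (b v)).2) v))
    (u : U) (v : V) (w : List (Fin M × Bool)) (z : ℤ × ℤ) :
    pr T₁ T₂ u v (run δ (fun k => a ((T₁ ^ k) u)) (fun k => b ((T₂ ^ k) v)) w z) =
      (w.map τ).prod (pr T₁ T₂ u v z) := by
  induction w with
  | nil => rfl
  | cons l w ih =>
    rw [run_cons, List.map_cons, List.prod_cons, Equiv.Perm.mul_apply, ← ih]
    set q := run δ (fun k => a ((T₁ ^ k) u)) (fun k => b ((T₂ ^ k) v)) w z with hq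
    simp only [pr, hτ, act, Prod.fst_add, Prod.snd_add]
    rw [add_comm q.1, add_comm q.2, zpow_add, zpow_add]
    rfl

theorem zero_of_long {X : Type} {T : Equiv.Perm X} {u : X} {K p q : ℤ}
    (hu : ∀ D : ℤ, |D| ≤ K → (T ^ D) u = u → D = 0) (h1 : |p - q| ≤ K)
    (h2 : (T ^ p) u = (T ^ q) u) : p = q := by
  have h3 : p - q = 0 := by
    apply hu _ h1
    have e : (T ^ q) ((T ^ (p - q)) u) = (T ^ q) u := by
      rw [← Equiv.Perm.mul_apply, ← zpow_add, show q + (p - q) = p by ring]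
      exact h2
    exact (T ^ q).injective e
  omega

/-- the lift is good when the cycles are long -/
theorem good_lift {C : ℤ} (hC : 0 ≤ C) (hb : ∀ l α β, |(δ l α β).1| ≤ C ∧ |(δ l α β).2| ≤ C)
    (hτ : ∀ l u v, τ l (u, v) = ((T₁ ^ (δ l (a u) (b v)).1) u, (T₂ ^ (δ l (a u) (b v)).2) v))
    (hinv : ∀ i ε, τ (i, ε) * τ (i, !ε) = 1) (R : Set (FreeGroup (Fin M))) (N : ℕ) (h2 : 2 ≤ N)
    (hN : ∀ w ∈ R, w.norm ≤ N) (hR : ∀ w ∈ R, (w.toWord.map τ).prod = 1) (u : U) (v : V)
    (hu : ∀ D : ℤ, |D| ≤ C * N → (T₁ ^ D) u = u → D = 0)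
    (hv : ∀ D : ℤ, |D| ≤ C * N → (T₂ ^ D) v = v → D = 0) :
    Good R C δ (fun k => a ((T₁ ^ k) u)) (fun k => b ((T₂ ^ k) v)) := by
  have key : ∀ w : List (Fin M × Bool), w.length ≤ N → (w.map τ).prod = 1 → ∀ z,
      run δ (fun k => a ((T₁ ^ k) u)) (fun k => b ((T₂ ^ k) v)) w z = z := by
    intro w hw hw1 z
    have h3 := pr_run T₁ T₂ δ a b τ hτ u v w z
    rw [hw1, Equiv.Perm.one_apply] at h3
    have h4 := run_bd hb (fun k => a ((T₁ ^ k) u)) (fun k => b ((T₂ ^ k) v)) w z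
    have h5 : C * (w.length : ℤ) ≤ C * N :=
      mul_le_mul_of_nonneg_left (by exact_mod_cast hw) hC
    have h6 := Prod.ext_iff.1 h3
    refine Prod.ext ?_ ?_
    · exact zero_of_long hu (h4.1.trans h5) h6.1
    · exact zero_of_long hv (h4.2.trans h5) h6.2
  refine ⟨hb, ?_, ?_⟩
  · intro i ε z
    exact key [(i, ε), (i, !ε)] h2 (by simp [hinv]) z
  · intro w hw z
    exact key w.toWord (hN w hw) (hR w hw) z

end sys

end Vale.Agent.P192.R2.H102
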