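import Vale.Agent.P192.R2.H360.Line

set_option linter.all false

/-! Coarse lines: the uniform theorem. -/

namespace Vale.Agent.P192.R2.H102

open Vale.Agent.P192.R2.H360

/-- points with the same coordinate are numbered -/
theorem exists_index {U I : Type} {k : ℕ} {p : U → I × ℤ} (hp : Coarse k p) :
    ∃ c : U → Fin k, ∀ u u', p u = p u' → c u = c u' → u = u' := by
  classical
  have h1 : ∀ z : I × ℤ, Nonempty ({u | p u = z} ↪ Fin k) := by
    intro z
    have hfin : {u | p u = z}.Finite := Set.finite_of_encard_le_coe (hp z)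
    have : Fintype {u | p u = z} := hfin.fintype
    apply Function.Embedding.nonempty_of_card_le
    rw [Fintype.card_fin]
    have h2 := hp z
    rw [Set.encard_eq_coe_toFinset_card, Set.toFinset_card] at h2
    exact_mod_cast h2
  let e : ∀ z : I × ℤ, {u | p u = z} ↪ Fin k := fun z => (h1 z).some
  refine ⟨fun u => e (p u) ⟨u, rfl⟩, fun u u' h h' => ?_⟩
  have key : ∀ (z) (hz : p u' = z), e (p u') ⟨u', rfl⟩ = e z ⟨u', hz⟩ := by
    rintro z rfl; rfl
  have h3 : e (p u) ⟨u, rfl⟩ = e (p u) ⟨u', h.symm⟩ := h'.trans (key _ h.symm)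
  exact congrArg Subtype.val ((e (p u)).injective h3)

/-- the embedding into a union of lines -/
def emb {U I : Type} {k : ℕ} (p : U → I × ℤ) (c : U → Fin k)
    (hc : ∀ u u', p u = p u' → c u = c u' → u = u') : U ↪ I × ℤ :=
  ⟨fun u => ((p u).1, k * (p u).2 + (c u : ℕ)), by
    intro u u' h
    have h1 : (p u).1 = (p u').1 := (Prod.ext_iff.1 h).1
    have h2 : (k : ℤ) * (p u).2 + (c u : ℕ) = k * (p u').2 + (c u' : ℕ) := (Prod.ext_iff.1 h).2
    have hk : (0 : ℤ) < k := by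
      have := (c u).2
      omega
    have h3 : ∀ (x : ℤ) (t : Fin k), ((k : ℤ) * x + (t : ℕ)) / k = x := by
      intro x t
      rw [add_comm, Int.add_mul_ediv_left _ _ hk.ne', Int.ediv_eq_zero_of_lt
        (Int.natCast_nonneg _) (by exact_mod_cast t.2), zero_add]
    have h4 : (p u).2 = (p u').2 := by rw [← h3 (p u).2 (c u), h2, h3]
    have h5 : ((c u : ℕ) : ℤ) = (c u' : ℕ) := by rw [h4] at h2; omega
    exact hc u u' (Prod.ext h1 h4) (Fin.ext (by exact_mod_cast h5))⟩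

theorem emb_disp {U I : Type} {k : ℕ} (p : U → I × ℤ) (c : U → Fin k)
    (hc : ∀ u u', p u = p u' → c u = c u' → u = u') {m : ℕ} {u u' : U}
    (h : |(p u').2 - (p u).2| ≤ m) :
    (emb p c hc u').2 - (emb p c hc u).2 ∈
      Finset.Icc (-((k * m + k : ℕ) : ℤ)) (k * m + k : ℕ) := by
  rw [Finset.mem_Icc, ← abs_le]
  show |(k : ℤ) * (p u').2 + (c u' : ℕ) - (k * (p u).2 + (c u : ℕ))| ≤ _
  have e : (k : ℤ) * (p u').2 + (c u' : ℕ) - (k * (p u).2 + (c u : ℕ)) =
      k * ((p u').2 - (p u).2) + (((c u' : ℕ) : ℤ) - (c u : ℕ)) := by ring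
  rw [e]
  refine (abs_add_le _ _).trans ?_
  push_cast
  apply add_le_add
  · rw [abs_mul, abs_of_nonneg (Int.natCast_nonneg k)]
    exact mul_le_mul_of_nonneg_left h (Int.natCast_nonneg k)
  · have h1 := (c u).2
    have h2 := (c u').2
    rw [abs_le]
    constructor <;> omega

/-- the shift of a union of lines -/
def shift (I : Type) : Equiv.Perm (I × ℤ) := Equiv.prodCongr (Equiv.refl I) (Equiv.addRight 1)

theorem shift_apply (I : Type) (x : I × ℤ) : shift I x = (x.1, x.2 + 1) := rfl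

theorem shift_pow (I : Type) (n : ℕ) (x : I × ℤ) : (shift I ^ n) x = (x.1, x.2 + n) := by
  induction n generalizing x with
  | zero => simp
  | succ n ih =>
    rw [pow_succ, Equiv.Perm.mul_apply, shift_apply, ih]
    push_cast
    exact Prod.ext rfl (by show x.2 + 1 + (n : ℤ) = x.2 + (n + 1); ring)

theorem shift_zpow (I : Type) (j : ℤ) (x : I × ℤ) : (shift I ^ j) x = (x.1, x.2 + j) := by
  rcases j with n | n
  · exact shift_pow I n x
  · rw [zpow_negSucc]
    apply (shift I ^ (n + 1)).injective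
    rw [← Equiv.Perm.mul_apply, mul_inv_cancel, Equiv.Perm.one_apply, shift_pow]
    exact Prod.ext rfl (by
      show x.2 = x.2 + Int.negSucc n + ((n + 1 : ℕ) : ℤ)
      rw [Int.negSucc_eq]; push_cast; ring)

/-- colours in any finite sets -/
theorem ptype_of {U V K L : Type} [Fintype K] [Fintype L] {T₁ : Equiv.Perm U}
    {T₂ : Equiv.Perm V} {m : ℕ} (hK : Fintype.card K ≤ m) (hL : Fintype.card L ≤ m)
    {h : U × V → U × V} (a : U → K) (b : V → L) (f : K → L → ℤ × ℤ)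
    (hf : ∀ α β, |(f α β).1| ≤ m ∧ |(f α β).2| ≤ m)
    (hh : ∀ u v, h (u, v) = ((T₁ ^ (f (a u) (b v)).1) u, (T₂ ^ (f (a u) (b v)).2) v)) :
    PType T₁ T₂ m h := by
  classical
  obtain ⟨eK⟩ : Nonempty (K ↪ Fin m) :=
    Function.Embedding.nonempty_of_card_le (by rw [Fintype.card_fin]; exact hK)
  obtain ⟨eL⟩ : Nonempty (L ↪ Fin m) :=
    Function.Embedding.nonempty_of_card_le (by rw [Fintype.card_fin]; exact hL)
  refine ⟨fun u => eK (a u), fun v => eL (b v), fun α β =>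
    if hαβ : (∃ κ, eK κ = α) ∧ ∃ l, eL l = β then f hαβ.1.choose hαβ.2.choose else (0, 0), ?_, ?_⟩
  · intro α β
    dsimp only
    by_cases hαβ : (∃ κ, eK κ = α) ∧ ∃ l, eL l = β
    · rw [dif_pos hαβ]; exact hf _ _
    · rw [dif_neg hαβ]; simp
  · intro u v
    have h1 : (∃ κ, eK κ = eK (a u)) ∧ ∃ l, eL l = eL (b v) := ⟨⟨_, rfl⟩, ⟨_, rfl⟩⟩
    have h2 : h1.1.choose = a u := eK.injective h1.1.choose_spec
    have h3 : h1.2.choose = b v := eL.injective h1.2.choose_spec
    have h4 : (if hαβ : (∃ κ, eK κ = eK (a u)) ∧ ∃ l, eL l = eL (b v) then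
        f hαβ.1.choose hαβ.2.choose else (0, 0)) = f (a u) (b v) := by
      rw [dif_pos h1, h2, h3]
    rw [hh u v]
    show _ = ((T₁ ^ (if hαβ : (∃ κ, eK κ = eK (a u)) ∧ ∃ l, eL l = eL (b v) then
        f hαβ.1.choose hαβ.2.choose else (0, 0)).1) u,
      (T₂ ^ (if hαβ : (∃ κ, eK κ = eK (a u)) ∧ ∃ l, eL l = eL (b v) then
        f hαβ.1.choose hαβ.2.choose else (0, 0)).2) v)
    rw [h4]

/-- the colours of the points of the lines -/
abbrev Col (m W : ℕ) : Type := Option (Fin m × (Fin m → ↥(Finset.Icc (-(W : ℤ)) W)))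

/-- the displacement given by two colours -/
def dsp {m W : ℕ} : Col m W → Col m W → ℤ × ℤ
  | some (α, t), some (β, s) => ((t β : ℤ), (s α : ℤ))
  | _, _ => (0, 0)

theorem dsp_bd {m W M : ℕ} (hM : W ≤ M) (α β : Col m W) :
    |(dsp α β).1| ≤ M ∧ |(dsp α β).2| ≤ M := by
  have h : ∀ x : ↥(Finset.Icc (-(W : ℤ)) W), |(x : ℤ)| ≤ M := by
    intro x
    have := x.2
    rw [Finset.mem_Icc, ← abs_le] at this
    exact this.trans (by exact_mod_cast hM)
  rcases α with _ | ⟨α, t⟩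
  · simp [dsp]
  · rcases β with _ | ⟨β, s⟩
    · simp [dsp]
    · exact ⟨h _, h _⟩

/-- (T1) uniform theorem for coarse lines, from (C) -/
theorem line_uniform_of (hU : UStmt) (G : Type) [Group G] [Group.IsFinitelyPresented G]
    (hG : IsMulTorsion G) (S : Set G) (hS : Subgroup.closure S = ⊤) (m k : ℕ) :
    ∃ N : Subgroup G, N.Normal ∧ N.FiniteIndex ∧
      ∀ (U V I J : Type) (p : U → I × ℤ) (q : V → J × ℤ), Coarse k p → Coarse k q →
        ∀ ρ : G →* Equiv.Perm (U × V),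
        (∀ s, (s ∈ S ∨ s⁻¹ ∈ S) → LType p q m (ρ s)) → ∀ g ∈ N, ρ g = 1 := by
  classical
  obtain ⟨N, hN1, hN2, hN3⟩ := hU G hG S hS
    (max (Fintype.card (Col m (k * m + k))) (k * m + k))
  refine ⟨N, hN1, hN2, ?_⟩
  intro U V I J p q hp hq ρ hρ g hg
  obtain ⟨c, hc⟩ := exists_index hp
  obtain ⟨d, hd⟩ := exists_index hq
  set ι := emb p c hc with hι
  set κ := emb q d hd with hκ
  have hinj := Equiv.Perm.viaEmbeddingHom_injective (ι.prodMap κ)
  apply hinj
  rw [map_one]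
  refine hN3 (I × ℤ) (J × ℤ) (shift I) (shift J)
    ((Equiv.Perm.viaEmbeddingHom (ι.prodMap κ)).comp ρ) ?_ g hg
  intro s hs
  obtain ⟨a, b, φ, ψ, hφ, hψ, hh⟩ := hρ s hs
  let ca : I × ℤ → Col m (k * m + k) := fun x =>
    if hx : ∃ u, ι u = x then some (a hx.choose, fun β =>
      ⟨(ι (φ hx.choose β)).2 - (ι hx.choose).2, emb_disp p c hc (hφ _ _).2⟩) else none
  let cb : J × ℤ → Col m (k * m + k) := fun y =>
    if hy : ∃ v, κ v = y then some (b hy.choose, fun α =>
      ⟨(κ (ψ α hy.choose)).2 - (κ hy.choose).2, emb_disp q d hd (hψ _ _).2⟩) else none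
  have hca : ∀ u, ca (ι u) = some (a u, fun β =>
      ⟨(ι (φ u β)).2 - (ι u).2, emb_disp p c hc (hφ _ _).2⟩) := by
    intro u
    have hx : ∃ u', ι u' = ι u := ⟨u, rfl⟩
    have h1 : hx.choose = u := ι.injective hx.choose_spec
    show (if hx : ∃ u', ι u' = ι u then _ else _) = _
    rw [dif_pos hx]
    simp only [h1]
  have hcb : ∀ v, cb (κ v) = some (b v, fun α =>
      ⟨(κ (ψ α v)).2 - (κ v).2, emb_disp q d hd (hψ _ _).2⟩) := by
    intro v
    have hx : ∃ v', κ v' = κ v := ⟨v, rfl⟩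
    have h1 : hx.choose = v := κ.injective hx.choose_spec
    show (if hx : ∃ v', κ v' = κ v then _ else _) = _
    rw [dif_pos hx]
    simp only [h1]
  have hca' : ∀ x, (¬ ∃ u, ι u = x) → ca x = none := fun x hx => dif_neg hx
  have hcb' : ∀ y, (¬ ∃ v, κ v = y) → cb y = none := fun y hy => dif_neg hy
  refine ptype_of (le_max_left _ _) (le_max_left _ _) ca cb dsp
    (dsp_bd (le_max_right _ _)) ?_
  intro x y
  show Equiv.Perm.viaEmbeddingHom (ι.prodMap κ) (ρ s) (x, y) = _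
  rw [Equiv.Perm.viaEmbeddingHom_apply]
  by_cases hx : ∃ u, ι u = x
  · by_cases hy : ∃ v, κ v = y
    · obtain ⟨u, rfl⟩ := hx
      obtain ⟨v, rfl⟩ := hy
      have h1 := Equiv.Perm.viaEmbedding_apply (ρ s) (ι.prodMap κ) (u, v)
      have h2 : (ι.prodMap κ) (u, v) = (ι u, κ v) := rfl
      rw [h2] at h1
      rw [h1, hh, hca, hcb]
      show (ι (φ u (b v)), κ (ψ (a u) v)) = _
      simp only [dsp, shift_zpow]
      refine Prod.ext (Prod.ext ?_ ?_) (Prod.ext ?_ ?_)
      · exact (hφ u (b v)).1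
      · show (ι (φ u (b v))).2 = (ι u).2 + ((ι (φ u (b v))).2 - (ι u).2)
        ring
      · exact (hψ (a u) v).1
      · show (κ (ψ (a u) v)).2 = (κ v).2 + ((κ (ψ (a u) v)).2 - (κ v).2)
        ring
    · rw [Equiv.Perm.viaEmbedding_apply_of_notMem, hcb' y hy]
      · rcases ca x with _ | ⟨α, t⟩ <;> simp [dsp]
      · rintro ⟨⟨u, v⟩, h⟩
        exact hy ⟨v, congrArg Prod.snd h⟩
  · rw [Equiv.Perm.viaEmbedding_apply_of_notMem, hca' x hx]
    · simp [dsp]
    · rintro ⟨⟨u, v⟩, h⟩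
      exact hx ⟨u, congrArg Prod.fst h⟩

/-- (T1), as a statement -/
theorem lstmt_of (hU : UStmt) : LStmt := fun G _ _ hG S hS m k => line_uniform_of hU G hG S hS m k

end Vale.Agent.P192.R2.H102
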