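import Vale.Agent.P192.R2.H102.Lift
import Vale.Agent.P192.R2.H577.Gro

set_option linter.all false

/-! Product systems: the uniform theorem, from the path lemma. -/

namespace Vale.Agent.P192.R2.H102

open Vale.Agent.P192 Vale.Agent.P192.H437 Vale.Agent.P192.R2.H577 Vale.Agent.P192.R2.H360

/-- the path lemma for good systems -/
def PathLemma : Prop :=
  ∀ (A B : Type) [Finite A] [Finite B] (M : ℕ) (R : Set (FreeGroup (Fin M))) (C : ℤ), 0 ≤ C →
    ∀ (N : ℕ), 2 ≤ N → (∀ w ∈ R, w.norm ≤ N) →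
    (∀ g : FreeGroup (Fin M), ∃ m : ℕ, 0 < m ∧ g ^ m ∈ Subgroup.normalClosure R) →
    (∃ (δ : Fin M × Bool → A → B → ℤ × ℤ) (a : ℤ → A) (b : ℤ → B), H360.Good R C δ a b) →
    ∀ ε : ℝ, 0 < ε → ∃ n0 : ℕ, ∀ n, n0 ≤ n → ∀ (a : ℤ → A) (b : ℤ → B) (x y : ℕ → ℤ),
      GPath R C a b x y n →
      |(x n : ℝ) - x 0| ≤ ε * n ∧ |(y n : ℝ) - y 0| ≤ ε * n

/-- the points of a grid ball -/
theorem card_image_le {X : Type} (f : ℤ × ℤ → X) (s t : Finset ℤ) (Q : Set X)
    (h : ∀ q ∈ Q, ∃ z : ℤ × ℤ, z.1 ∈ s ∧ z.2 ∈ t ∧ f z = q) :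
    Q.encard ≤ ((s.card * t.card : ℕ) : ℕ∞) := by
  have h1 : Q ⊆ f '' ((s ×ˢ t : Finset (ℤ × ℤ)) : Set (ℤ × ℤ)) := by
    intro q hq
    obtain ⟨z, h1, h2, h3⟩ := h q hq
    exact ⟨z, by simp [h1, h2], h3⟩
  refine (Set.encard_le_encard h1).trans ((Set.encard_image_le _ _).trans ?_)
  rw [Set.encard_coe_eq_coe_finsetCard, Finset.card_product]

/-- on a short cycle exponents are reduced -/
theorem reduce {X : Type} {T : Equiv.Perm X} {u : X} {D : ℤ} (hD : D ≠ 0) (h : (T ^ D) u = u)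
    (k : ℤ) : (T ^ k) u = (T ^ (k % D)) u := by
  have h1 : ∀ j : ℤ, ((T ^ D) ^ j) u = u := by
    intro j
    have h2 : ∀ n : ℕ, ((T ^ D) ^ n) u = u := by
      intro n
      induction n with
      | zero => rfl
      | succ n ih => rw [pow_succ, Equiv.Perm.mul_apply, h, ih]
    rcases j with n | n
    · exact h2 n
    · rw [zpow_negSucc]
      apply (((T ^ D) ^ (n + 1) : Equiv.Perm X)).injective
      rw [← Equiv.Perm.mul_apply, mul_inv_cancel, Equiv.Perm.one_apply, h2]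
  have h3 : k = k % D + D * (k / D) := (Int.emod_add_mul_ediv k D).symm
  conv_lhs => rw [h3]
  rw [zpow_add, Equiv.Perm.mul_apply, zpow_mul, h1]

/-- many steps in the ball -/
theorem numbers (c : ℝ) (hc : 0 < c) (n0 K C : ℕ) :
    ∃ n : ℕ, n0 ≤ n ∧ ((max ((2 * ⌊Real.sqrt c / 4 * n⌋₊ + 1) * (2 * ⌊Real.sqrt c / 4 * n⌋₊ + 1))
      (K * (2 * (C * n) + 1)) : ℕ) : ℝ) < c * (n : ℝ) ^ 2 := by
  set s := Real.sqrt c with hs
  have hs0 : 0 < s := Real.sqrt_pos.2 hc
  have hss : s * s = c := Real.mul_self_sqrt hc.le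
  obtain ⟨n1, h1⟩ := exists_nat_gt (2 / s)
  obtain ⟨n2, h2⟩ := exists_nat_gt ((K * (2 * C + 1) : ℝ) / c)
  refine ⟨n0 + n1 + n2 + 1, by omega, ?_⟩
  set n := n0 + n1 + n2 + 1 with hn
  have hn1 : (n1 : ℝ) ≤ n := by exact_mod_cast (by omega : n1 ≤ n)
  have hn2 : (n2 : ℝ) ≤ n := by exact_mod_cast (by omega : n2 ≤ n)
  have hn3 : (1 : ℝ) ≤ n := by exact_mod_cast (by omega : 1 ≤ n)
  rw [Nat.cast_max]
  apply max_lt
  · push_cast
    have h3 : (⌊s / 4 * n⌋₊ : ℝ) ≤ s / 4 * n := Nat.floor_le (by positivity)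
    have h4 : 2 < s * n := by
      have := (div_lt_iff₀ hs0).1 (h1.trans_le hn1)
      linarith
    have h5 : (2 * (⌊s / 4 * n⌋₊ : ℝ) + 1) < s * n := by linarith
    have h6 : (0 : ℝ) ≤ 2 * (⌊s / 4 * n⌋₊ : ℝ) + 1 := by positivity
    calc (2 * (⌊s / 4 * n⌋₊ : ℝ) + 1) * (2 * (⌊s / 4 * n⌋₊ : ℝ) + 1) < (s * n) * (s * n) :=
          mul_lt_mul'' h5 h5 h6 h6
      _ = c * (n : ℝ) ^ 2 := by rw [← hss]; ring
  · push_cast
    have h3 : (K * (2 * C + 1) : ℝ) < c * n := by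
      have := (div_lt_iff₀ hc).1 (h2.trans_le hn2)
      linarith
    have h4 : (K * (2 * (C * n) + 1) : ℝ) ≤ K * (2 * C + 1) * n := by
      have h5 : (2 * (C * n) + 1 : ℝ) ≤ (2 * C + 1) * n := by linarith
      have h6 : (0 : ℝ) ≤ K := Nat.cast_nonneg _
      have := mul_le_mul_of_nonneg_left h5 h6
      linarith
    calc (K * (2 * (C * n) + 1) : ℝ) ≤ K * (2 * C + 1) * n := h4
      _ < c * n * n := mul_lt_mul_of_pos_right h3 (by linarith)
      _ = c * (n : ℝ) ^ 2 := by ring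

theorem uniform_of (HP : PathLemma) (G : Type) [Group G] [Group.IsFinitelyPresented G]
    (hG : IsMulTorsion G)
    (S : Set G) (hS : Subgroup.closure S = ⊤) (m : ℕ) :
    ∃ N : Subgroup G, N.Normal ∧ N.FiniteIndex ∧
      ∀ (U V : Type) (T₁ : Equiv.Perm U) (T₂ : Equiv.Perm V) (ρ : G →* Equiv.Perm (U × V)),
        (∀ s, (s ∈ S ∨ s⁻¹ ∈ S) → PType T₁ T₂ m (ρ s)) → ∀ g ∈ N, ρ g = 1 := by
  obtain ⟨M, σ, hσS, hσ, -⟩ := exists_tuple G S hS
  obtain ⟨D⟩ := exists_data G hG σ hσ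
  obtain ⟨c, hc, hgr⟩ := growth_uniform.{0, 0} G hG (Set.range σ) hσ
  set R := D.R with hR
  set N0 := D.r with hN0
  have hs0 : 0 < Real.sqrt c / 4 := by
    have := Real.sqrt_pos.2 hc
    positivity
  -- the path lemma with the parameter `√c / 4`
  obtain ⟨n0, hn0⟩ : ∃ n0 : ℕ, ∀ n, n0 ≤ n →
      ∀ (a : ℤ → (Fin M × Bool → Fin m)) (b : ℤ → (Fin M × Bool → Fin m)) (x y : ℕ → ℤ),
      GPath R (m : ℤ) a b x y n →
      |(x n : ℝ) - x 0| ≤ Real.sqrt c / 4 * n ∧ |(y n : ℝ) - y 0| ≤ Real.sqrt c / 4 * n := by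
    by_cases hne : ∃ (δ : Fin M × Bool → (Fin M × Bool → Fin m) → (Fin M × Bool → Fin m) → ℤ × ℤ)
        (a : ℤ → (Fin M × Bool → Fin m)) (b : ℤ → (Fin M × Bool → Fin m)), H360.Good R (m : ℤ) δ a b
    · exact HP _ _ M R m (Int.natCast_nonneg m) N0 D.hr D.hR D.htors hne _ hs0
    · refine ⟨0, fun n _ a b x y h => absurd ?_ hne⟩
      obtain ⟨δ, h1, -⟩ := h
      exact ⟨δ, a, b, h1⟩
  obtain ⟨n, hnn, hnb⟩ := numbers c hc n0 (m * N0) m
  obtain ⟨N, hN1, hN2, hN3⟩ := hgr n _ hnb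
  refine ⟨N, hN1, hN2, ?_⟩
  intro U V T₁ T₂ ρ hρ g hg
  letI inst : MulAction G (U × V) := MulAction.compHom (U × V) ρ
  have hsm : ∀ (g : G) (z : U × V), g • z = ρ g z := fun g z => rfl
  have hfin := hN3 (U × V) ?_ g hg
  · ext1 z
    rw [← hsm, hfin z, Equiv.Perm.one_apply]
  -- the letters
  let gl : Fin M × Bool → G := fun l => cond l.2 (σ l.1) (σ l.1)⁻¹
  have hgl : ∀ l, gl l ∈ S ∨ (gl l)⁻¹ ∈ S := by
    rintro ⟨i, _ | _⟩
    · right
      show ((σ i)⁻¹)⁻¹ ∈ S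
      rw [inv_inv]; exact hσS ⟨i, rfl⟩
    · left; exact hσS ⟨i, rfl⟩
  choose a0 b0 f hf1 hf2 using fun l => hρ (gl l) (hgl l)
  let a : U → (Fin M × Bool → Fin m) := fun u l => a0 l u
  let b : V → (Fin M × Bool → Fin m) := fun v l => b0 l v
  let δ : Fin M × Bool → (Fin M × Bool → Fin m) → (Fin M × Bool → Fin m) → ℤ × ℤ :=
    fun l α β => f l (α l) (β l)
  let τ : Fin M × Bool → Equiv.Perm (U × V) := fun l => ρ (gl l)
  have hδ : ∀ l α β, |(δ l α β).1| ≤ (m : ℤ) ∧ |(δ l α β).2| ≤ (m : ℤ) :=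
    fun l α β => hf1 l (α l) (β l)
  have hτ : ∀ l u v, τ l (u, v) = ((T₁ ^ (δ l (a u) (b v)).1) u, (T₂ ^ (δ l (a u) (b v)).2) v) :=
    fun l u v => hf2 l u v
  have hprod : ∀ w : List (Fin M × Bool), (w.map τ).prod = ρ (w.map gl).prod := by
    intro w
    rw [map_list_prod, List.map_map]; rfl
  have hinv : ∀ i ε, τ (i, ε) * τ (i, !ε) = 1 := by
    intro i ε
    show ρ (gl (i, ε)) * ρ (gl (i, !ε)) = 1
    rw [← map_mul, ← map_one ρ]
    congr 1
    rcases ε with _ | _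
    · show (σ i)⁻¹ * σ i = 1
      exact inv_mul_cancel _
    · show σ i * (σ i)⁻¹ = 1
      exact mul_inv_cancel _
  have hrel : ∀ w ∈ R, (w.toWord.map τ).prod = 1 := by
    intro w hw
    have h1 := D.hone w hw
    rw [← FreeGroup.mk_toWord (x := w), FreeGroup.lift_mk] at h1
    rw [hprod, ← map_one ρ, ← h1]
  have hball : ∀ (u : U) (v : V) (q : U × V), hop (Set.range σ) n (u, v) q →
      ∃ w : List (Fin M × Bool), w.length ≤ n ∧
        pr T₁ T₂ u v (run δ (fun k => a ((T₁ ^ k) u)) (fun k => b ((T₂ ^ k) v)) w (0, 0)) = q := by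
    rintro u v q ⟨ws, h1, h2, h3⟩
    have h4 : ws ∈ Set.range (List.map gl) := by
      rw [Set.range_list_map]
      intro s hs
      rcases h1 s hs with ⟨i, hi⟩ | ⟨i, hi⟩
      · exact ⟨(i, true), hi⟩
      · refine ⟨(i, false), ?_⟩
        show (σ i)⁻¹ = s
        rw [hi, inv_inv]
    obtain ⟨w, rfl⟩ := h4
    refine ⟨w, by simpa using h2, ?_⟩
    rw [pr_run T₁ T₂ δ a b τ hτ, hprod, ← h3, hsm]
    rfl
  rintro ⟨u, v⟩
  by_cases hu : ∀ D : ℤ, |D| ≤ (m : ℤ) * N0 → (T₁ ^ D) u = u → D = 0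
  · by_cases hv : ∀ D : ℤ, |D| ≤ (m : ℤ) * N0 → (T₂ ^ D) v = v → D = 0
    · -- long cycles
      have hgood := good_lift T₁ T₂ δ a b τ (Int.natCast_nonneg m) hδ hτ hinv R N0 D.hr D.hR hrel
        u v hu hv
      set k := ⌊Real.sqrt c / 4 * n⌋₊ with hk
      refine (card_image_le (pr T₁ T₂ u v) (Finset.Icc (-(k : ℤ)) k) (Finset.Icc (-(k : ℤ)) k) _
        ?_).trans ?_
      · intro q hq
        obtain ⟨w, hw, hq'⟩ := hball u v q hq
        obtain ⟨x, y, hx, hy, hs, he⟩ := path_of_word δ (fun k => a ((T₁ ^ k) u))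
          (fun k => b ((T₂ ^ k) v)) w (0, 0)
        refine ⟨_, ?_, ?_, hq'⟩
        all_goals
          have h5 := hn0 n hnn _ _ x y ⟨δ, hgood, fun k _ => hs k⟩
          have h6 := he n hw
          rw [← h6]
          rw [hx, hy] at h5
          simp only [Int.cast_zero, sub_zero] at h5
          rw [Finset.mem_Icc, ← abs_le]
        · have h7 : ((|x n| : ℤ) : ℝ) ≤ Real.sqrt c / 4 * n := by rw [Int.cast_abs]; exact h5.1
          have h8 : (x n).natAbs ≤ k := by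
            apply Nat.le_floor
            rw [Nat.cast_natAbs]; exact h7
          show |x n| ≤ (k : ℤ)
          rw [Int.abs_eq_natAbs]; exact_mod_cast h8
        · have h7 : ((|y n| : ℤ) : ℝ) ≤ Real.sqrt c / 4 * n := by rw [Int.cast_abs]; exact h5.2
          have h8 : (y n).natAbs ≤ k := by
            apply Nat.le_floor
            rw [Nat.cast_natAbs]; exact h7
          show |y n| ≤ (k : ℤ)
          rw [Int.abs_eq_natAbs]; exact_mod_cast h8
      · rw [Int.card_Icc]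
        have e : ((k : ℤ) + 1 - -(k : ℤ)).toNat = 2 * k + 1 := by omega
        rw [e]
        exact_mod_cast le_max_left _ _
    · -- short cycle in the second factor
      push Not at hv
      obtain ⟨E, hE1, hE2, hE3⟩ := hv
      refine (card_image_le (pr T₁ T₂ u v) (Finset.Icc (-((m * n : ℕ) : ℤ)) (m * n : ℕ))
        (Finset.Ico 0 |E|) _ ?_).trans ?_
      · intro q hq
        obtain ⟨w, hw, hq'⟩ := hball u v q hq
        have h5 := run_bd hδ (fun k => a ((T₁ ^ k) u)) (fun k => b ((T₂ ^ k) v)) w (0, 0)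
        set z := run δ (fun k => a ((T₁ ^ k) u)) (fun k => b ((T₂ ^ k) v)) w (0, 0) with hz
        refine ⟨(z.1, z.2 % E), ?_, ?_, ?_⟩
        · rw [Finset.mem_Icc, ← abs_le]
          have h6 := h5.1
          simp only [sub_zero] at h6
          refine h6.trans ?_
          have : (m : ℤ) * w.length ≤ m * n :=
            mul_le_mul_of_nonneg_left (by exact_mod_cast hw) (Int.natCast_nonneg m)
          push_cast
          exact this
        · rw [Finset.mem_Ico]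
          exact ⟨Int.emod_nonneg _ hE3, Int.emod_lt_abs _ hE3⟩
        · rw [← hq']
          exact Prod.ext rfl (reduce hE3 hE2 z.2).symm
      · rw [Int.card_Icc, Int.card_Ico]
        have e : (((m * n : ℕ) : ℤ) + 1 - -((m * n : ℕ) : ℤ)).toNat = 2 * (m * n) + 1 := by omega
        have e2 : (|E| - 0).toNat ≤ m * N0 := by
          have : |E| ≤ ((m * N0 : ℕ) : ℤ) := by push_cast; exact hE1
          omega
        rw [e]
        have e3 : (2 * (m * n) + 1) * (|E| - 0).toNat ≤ m * N0 * (2 * (m * n) + 1) := by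
          rw [mul_comm]; exact Nat.mul_le_mul_right _ e2
        exact_mod_cast e3.trans (le_max_right _ _)
  · -- short cycle in the first factor
    push Not at hu
    obtain ⟨E, hE1, hE2, hE3⟩ := hu
    refine (card_image_le (pr T₁ T₂ u v) (Finset.Ico 0 |E|)
      (Finset.Icc (-((m * n : ℕ) : ℤ)) (m * n : ℕ)) _ ?_).trans ?_
    · intro q hq
      obtain ⟨w, hw, hq'⟩ := hball u v q hq
      have h5 := run_bd hδ (fun k => a ((T₁ ^ k) u)) (fun k => b ((T₂ ^ k) v)) w (0, 0)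
      set z := run δ (fun k => a ((T₁ ^ k) u)) (fun k => b ((T₂ ^ k) v)) w (0, 0) with hz
      refine ⟨(z.1 % E, z.2), ?_, ?_, ?_⟩
      · rw [Finset.mem_Ico]
        exact ⟨Int.emod_nonneg _ hE3, Int.emod_lt_abs _ hE3⟩
      · rw [Finset.mem_Icc, ← abs_le]
        have h6 := h5.2
        simp only [sub_zero] at h6
        refine h6.trans ?_
        have : (m : ℤ) * w.length ≤ m * n :=
          mul_le_mul_of_nonneg_left (by exact_mod_cast hw) (Int.natCast_nonneg m)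
        push_cast
        exact this
      · rw [← hq']
        exact Prod.ext (reduce hE3 hE2 z.1).symm rfl
    · rw [Int.card_Icc, Int.card_Ico]
      have e : (((m * n : ℕ) : ℤ) + 1 - -((m * n : ℕ) : ℤ)).toNat = 2 * (m * n) + 1 := by omega
      have e2 : (|E| - 0).toNat ≤ m * N0 := by
        have : |E| ≤ ((m * N0 : ℕ) : ℤ) := by push_cast; exact hE1
        omega
      rw [e]
      have e3 : (|E| - 0).toNat * (2 * (m * n) + 1) ≤ m * N0 * (2 * (m * n) + 1) :=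
        Nat.mul_le_mul_right _ e2
      exact_mod_cast e3.trans (le_max_right _ _)

end Vale.Agent.P192.R2.H102
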