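import Vale.Agent.P192.R2.H102.LocalU
import Vale.Agent.P192.R2.H360.Main
import Vale.Agent.P192.R2.H849.Box
import Vale.Agent.P192.R2.H730.Ext

set_option linter.all false

/-! The local theorem, without hypotheses. -/

namespace Vale.Agent.P192.R2.H102

open Vale.Agent.P192.R2.H360

theorem extStmt : ExtStmt := fun A _ r D => H730.extend r D

theorem boxStmt : BoxStmt := by
  intro A B M R C hC N h2 hN δ hbd a a' b b' x y L hinv hrel r hr ha hb
  exact good_of_box R C hC N h2 hN δ hbd a a' b b' x y L hinv hrel r hr ha hb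

/-- the local theorem -/
theorem local_uniform (G : Type) [Group G]
    [Group.IsFinitelyPresented G]
    (hG : IsMulTorsion G) (S : Set G) (hS : Subgroup.closure S = ⊤) (m : ℕ) :
    ∃ (R : ℕ) (N : Subgroup G), N.Normal ∧ N.FiniteIndex ∧
      ∀ (X : Type) (ρ : G →* Equiv.Perm X),
      (∀ p : X, ∃ π : ℤ × ℤ → X, π (0, 0) = p ∧ Chart S m (R : ℤ) ρ π) → ∀ g ∈ N, ρ g = 1 :=
  local_of pathLemma extStmt boxStmt G hG S hS m

end Vale.Agent.P192.R2.H102
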