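import Vale.Agent.P192.R2.H102.Uni

set_option linter.all false

/-! The local theorem: actions of product type at a bounded scale. -/

namespace Vale.Agent.P192.R2.H102

open Vale.Agent.P192 Vale.Agent.P192.H437 Vale.Agent.P192.R2.H577 Vale.Agent.P192.R2.H360

/-- the permutations `ρ s`, seen in the chart `π` around `π (0, 0)`, are of product type with
`m` colors on the square of radius `R` -/
def Chart {G X : Type} [Group G] (S : Set G) (m : ℕ) (R : ℤ) (ρ : G →* Equiv.Perm X)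
    (π : ℤ × ℤ → X) : Prop :=
  (∀ z z', |z.1| ≤ R → |z.2| ≤ R → |z'.1| ≤ R → |z'.2| ≤ R → π z = π z' → z = z') ∧
  ∀ s, (s ∈ S ∨ s⁻¹ ∈ S) → ∃ (a b : ℤ → Fin m) (f : Fin m → Fin m → ℤ × ℤ),
    (∀ α β, |(f α β).1| ≤ m ∧ |(f α β).2| ≤ m) ∧
    ∀ z, |z.1| ≤ R → |z.2| ≤ R →
      ρ s (π z) = π (z.1 + (f (a z.1) (b z.2)).1, z.2 + (f (a z.1) (b z.2)).2)

/-- statement of (E1) -/
def ExtStmt : Prop := ∀ (A : Type) [Finite A] (r D : ℕ),
    ∃ L : ℕ, D ≤ L ∧ ∀ (a : ℤ → A) (x : ℤ), ∃ a' : ℤ → A,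
      (∀ t, |t - x| ≤ D → a' t = a t) ∧
      ∀ u, ∃ v, |v - x| ≤ L ∧ win (r : ℤ) a' u a v

/-- statement of (E2) -/
def BoxStmt : Prop := ∀ (A B : Type) (M : ℕ) (R : Set (FreeGroup (Fin M))) (C : ℤ) (hC : 0 ≤ C)
    (N : ℕ) (h2 : 2 ≤ N) (hN : ∀ w ∈ R, w.norm ≤ N) (δ : Fin M × Bool → A → B → ℤ × ℤ)
    (hbd : ∀ l α β, |(δ l α β).1| ≤ C ∧ |(δ l α β).2| ≤ C)
    (a a' : ℤ → A) (b b' : ℤ → B) (x y L : ℤ)
    (hinv : ∀ i ε (z : ℤ × ℤ), |z.1 - x| ≤ L → |z.2 - y| ≤ L →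
      act δ a b (i, ε) (act δ a b (i, !ε) z) = z)
    (hrel : ∀ w ∈ R, ∀ z : ℤ × ℤ, |z.1 - x| ≤ L → |z.2 - y| ≤ L → run δ a b w.toWord z = z)
    (r : ℤ) (hr : C * N ≤ r)
    (ha : ∀ u, ∃ v, |v - x| ≤ L ∧ win r a' u a v)
    (hb : ∀ u, ∃ v, |v - y| ≤ L ∧ win r b' u b v), H360.Good R C δ a' b'

section chart

variable {A B X : Type} {M : ℕ} {C : ℤ} {δ : Fin M × Bool → A → B → ℤ × ℤ}

/-- words in a chart -/
theorem chart_run (hC : 0 ≤ C) (hb : ∀ l α β, |(δ l α β).1| ≤ C ∧ |(δ l α β).2| ≤ C)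
    (a : ℤ → A) (b : ℤ → B) (τ : Fin M × Bool → Equiv.Perm X) (π : ℤ × ℤ → X) (R : ℤ)
    (hπ : ∀ l (z : ℤ × ℤ), |z.1| ≤ R → |z.2| ≤ R → τ l (π z) = π (act δ a b l z))
    (w : List (Fin M × Bool)) (z : ℤ × ℤ) (h1 : |z.1| + C * w.length ≤ R)
    (h2 : |z.2| + C * w.length ≤ R) :
    π (run δ a b w z) = (w.map τ).prod (π z) := by
  induction w with
  | nil => rfl
  | cons l w ih =>
    rw [List.length_cons] at h1 h2
    push_cast at h1 h2
    rw [mul_add, mul_one] at h1 h2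
    have h3 := run_bd hb a b w z
    rw [run_cons, List.map_cons, List.prod_cons, Equiv.Perm.mul_apply,
      ← ih (by linarith) (by linarith)]
    set q := run δ a b w z with hq
    symm
    apply hπ
    · have h4 : |q.1| ≤ |z.1| + |q.1 - z.1| := by
        have : q.1 = z.1 + (q.1 - z.1) := by ring
        conv_lhs => rw [this]
        exact abs_add_le _ _
      linarith [h3.1]
    · have h4 : |q.2| ≤ |z.2| + |q.2 - z.2| := by
        have : q.2 = z.2 + (q.2 - z.2) := by ring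
        conv_lhs => rw [this]
        exact abs_add_le _ _
      linarith [h3.2]

/-- words do not see changes of the colorings far away -/
theorem run_congr (hC : 0 ≤ C) (hb : ∀ l α β, |(δ l α β).1| ≤ C ∧ |(δ l α β).2| ≤ C)
    (a a' : ℤ → A) (b b' : ℤ → B) (D : ℤ) (ha : ∀ t, |t| ≤ D → a' t = a t)
    (hb' : ∀ t, |t| ≤ D → b' t = b t) (w : List (Fin M × Bool)) (hw : C * w.length ≤ D) :
    run δ a' b' w (0, 0) = run δ a b w (0, 0) := by
  induction w with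
  | nil => rfl
  | cons l w ih =>
    rw [List.length_cons] at hw
    push_cast at hw
    rw [mul_add, mul_one] at hw
    have h3 := run_bd hb a b w (0, 0)
    simp only [sub_zero] at h3
    rw [run_cons, run_cons, ih (by linarith)]
    set q := run δ a b w (0, 0) with hq
    simp only [act]
    rw [ha q.1 (by linarith [h3.1]), hb' q.2 (by linarith [h3.2])]

end chart

/-- (E3) the local theorem -/
theorem local_of (HP : PathLemma) (HE : ExtStmt) (HB : BoxStmt) (G : Type) [Group G]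
    [Group.IsFinitelyPresented G]
    (hG : IsMulTorsion G) (S : Set G) (hS : Subgroup.closure S = ⊤) (m : ℕ) :
    ∃ (R : ℕ) (N : Subgroup G), N.Normal ∧ N.FiniteIndex ∧
      ∀ (X : Type) (ρ : G →* Equiv.Perm X),
      (∀ p : X, ∃ π : ℤ × ℤ → X, π (0, 0) = p ∧ Chart S m (R : ℤ) ρ π) → ∀ g ∈ N, ρ g = 1 := by
  obtain ⟨M, σ, hσS, hσ, -⟩ := exists_tuple G S hS
  obtain ⟨D⟩ := exists_data G hG σ hσ
  obtain ⟨c, hc, hgr⟩ := growth_uniform.{0, 0} G hG (Set.range σ) hσ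
  set R := D.R with hR
  set N0 := D.r with hN0
  have hm0 : (0 : ℤ) ≤ m := Int.natCast_nonneg m
  have hs0 : 0 < Real.sqrt c / 4 := by
    have := Real.sqrt_pos.2 hc
    positivity
  -- the path lemma with the parameter `√c / 4`
  obtain ⟨n0, hn0⟩ : ∃ n0 : ℕ, ∀ n, n0 ≤ n →
      ∀ (a : ℤ → (Fin M × Bool → Fin m)) (b : ℤ → (Fin M × Bool → Fin m)) (x y : ℕ → ℤ),
      GPath R (m : ℤ) a b x y n →
      |(x n : ℝ) - x 0| ≤ Real.sqrt c / 4 * n ∧ |(y n : ℝ) - y 0| ≤ Real.sqrt c / 4 * n := by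
    by_cases hne : ∃ (δ : Fin M × Bool → (Fin M × Bool → Fin m) → (Fin M × Bool → Fin m) → ℤ × ℤ)
        (a : ℤ → (Fin M × Bool → Fin m)) (b : ℤ → (Fin M × Bool → Fin m)), H360.Good R (m : ℤ) δ a b
    · exact HP _ _ M R m (Int.natCast_nonneg m) N0 D.hr D.hR D.htors hne _ hs0
    · refine ⟨0, fun n _ a b x y h => absurd ?_ hne⟩
      obtain ⟨δ, h1, -⟩ := h
      exact ⟨δ, a, b, h1⟩
  obtain ⟨n, hnn, hnb⟩ := numbers c hc n0 (m * N0) m
  obtain ⟨N, hN1, hN2, hN3⟩ := hgr n _ hnb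
  obtain ⟨L, hDL, hL⟩ := HE (Fin M × Bool → Fin m) (m * N0) (m * n)
  refine ⟨L + m * (n + N0 + 2), N, hN1, hN2, ?_⟩
  intro X ρ hρ g hg
  letI inst : MulAction G X := MulAction.compHom X ρ
  have hsm : ∀ (g : G) (z : X), g • z = ρ g z := fun g z => rfl
  have hfin := hN3 X ?_ g hg
  · ext1 z
    rw [← hsm, hfin z, Equiv.Perm.one_apply]
  -- the letters
  let gl : Fin M × Bool → G := fun l => cond l.2 (σ l.1) (σ l.1)⁻¹
  have hgl : ∀ l, gl l ∈ S ∨ (gl l)⁻¹ ∈ S := by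
    rintro ⟨i, _ | _⟩
    · right
      show ((σ i)⁻¹)⁻¹ ∈ S
      rw [inv_inv]; exact hσS ⟨i, rfl⟩
    · left; exact hσS ⟨i, rfl⟩
  let τ : Fin M × Bool → Equiv.Perm X := fun l => ρ (gl l)
  have hprod : ∀ w : List (Fin M × Bool), (w.map τ).prod = ρ (w.map gl).prod := by
    intro w
    rw [map_list_prod, List.map_map]; rfl
  have hinv : ∀ i ε, τ (i, ε) * τ (i, !ε) = 1 := by
    intro i ε
    show ρ (gl (i, ε)) * ρ (gl (i, !ε)) = 1
    rw [← map_mul, ← map_one ρ]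
    congr 1
    rcases ε with _ | _
    · show (σ i)⁻¹ * σ i = 1
      exact inv_mul_cancel _
    · show σ i * (σ i)⁻¹ = 1
      exact mul_inv_cancel _
  have hrel : ∀ w ∈ R, (w.toWord.map τ).prod = 1 := by
    intro w hw
    have h1 := D.hone w hw
    rw [← FreeGroup.mk_toWord (x := w), FreeGroup.lift_mk] at h1
    rw [hprod, ← map_one ρ, ← h1]
  intro p
  obtain ⟨π, hπ0, hinj, hch⟩ := hρ p
  choose a0 b0 f hf1 hf2 using fun l => hch (gl l) (hgl l)
  let a : ℤ → (Fin M × Bool → Fin m) := fun u l => a0 l u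
  let b : ℤ → (Fin M × Bool → Fin m) := fun v l => b0 l v
  let δ : Fin M × Bool → (Fin M × Bool → Fin m) → (Fin M × Bool → Fin m) → ℤ × ℤ :=
    fun l α β => f l (α l) (β l)
  have hδ : ∀ l α β, |(δ l α β).1| ≤ (m : ℤ) ∧ |(δ l α β).2| ≤ (m : ℤ) :=
    fun l α β => hf1 l (α l) (β l)
  have hτ : ∀ l (z : ℤ × ℤ), |z.1| ≤ ((L + m * (n + N0 + 2) : ℕ) : ℤ) →
      |z.2| ≤ ((L + m * (n + N0 + 2) : ℕ) : ℤ) → τ l (π z) = π (act δ a b l z) :=
    fun l z h1 h2 => hf2 l z h1 h2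
  have hLn : (L : ℤ) + m * N0 ≤ ((L + m * (n + N0 + 2) : ℕ) : ℤ) := by
    push_cast
    have h1 : (0 : ℤ) ≤ (m : ℤ) * n := by positivity
    have h2 : (0 : ℤ) ≤ (m : ℤ) * 2 := by positivity
    nlinarith
  have hnn' : (m : ℤ) * n ≤ ((L + m * (n + N0 + 2) : ℕ) : ℤ) := by
    push_cast
    have h1 : (0 : ℤ) ≤ (m : ℤ) * N0 := by positivity
    have h2 : (0 : ℤ) ≤ (m : ℤ) * 2 := by positivity
    have h3 : (0 : ℤ) ≤ (L : ℤ) := by positivity
    nlinarith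
  -- short words which act trivially
  have key : ∀ w : List (Fin M × Bool), w.length ≤ N0 → (w.map τ).prod = 1 →
      ∀ z : ℤ × ℤ, |z.1 - 0| ≤ (L : ℤ) → |z.2 - 0| ≤ (L : ℤ) → run δ a b w z = z := by
    intro w hw hw1 z hz1 hz2
    rw [sub_zero] at hz1 hz2
    have h5 : (m : ℤ) * (w.length : ℤ) ≤ m * N0 :=
      mul_le_mul_of_nonneg_left (by exact_mod_cast hw) hm0
    have h3 := chart_run hm0 hδ a b τ π _ hτ w z (by linarith) (by linarith)
    rw [hw1, Equiv.Perm.one_apply] at h3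
    have h4 := run_bd hδ a b w z
    have h6 : ∀ s t : ℤ, |s - t| ≤ (m : ℤ) * w.length → |t| ≤ (L : ℤ) →
        |s| ≤ ((L + m * (n + N0 + 2) : ℕ) : ℤ) := by
      intro s t h1 h2
      have : s = t + (s - t) := by ring
      rw [this]
      exact (abs_add_le _ _).trans (by linarith)
    have h0 : (0 : ℤ) ≤ (m : ℤ) * N0 := by positivity
    exact hinj _ _ (h6 _ _ h4.1 hz1) (h6 _ _ h4.2 hz2) (by linarith) (by linarith) h3
  obtain ⟨a', ha1, ha2⟩ := hL a 0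
  obtain ⟨b', hb1, hb2⟩ := hL b 0
  simp only [sub_zero] at ha1 hb1
  have hgood : H360.Good R (m : ℤ) δ a' b' :=
    HB _ _ M R m hm0 N0 D.hr D.hR δ hδ a a' b b' 0 0 L
      (fun i ε z h1 h2 => key [(i, ε), (i, !ε)] D.hr (by simp [hinv]) z h1 h2)
      (fun w hw z h1 h2 => key w.toWord (D.hR w hw) (hrel w hw) z h1 h2)
      ((m * N0 : ℕ) : ℤ) (by push_cast; exact le_rfl) ha2 hb2
  have hball : ∀ q : X, hop (Set.range σ) n p q →
      ∃ w : List (Fin M × Bool), w.length ≤ n ∧ π (run δ a' b' w (0, 0)) = q := by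
    rintro q ⟨ws, h1, h2, h3⟩
    have h4 : ws ∈ Set.range (List.map gl) := by
      rw [Set.range_list_map]
      intro s hs
      rcases h1 s hs with ⟨i, hi⟩ | ⟨i, hi⟩
      · exact ⟨(i, true), hi⟩
      · refine ⟨(i, false), ?_⟩
        show (σ i)⁻¹ = s
        rw [hi, inv_inv]
    obtain ⟨w, rfl⟩ := h4
    have hwn : w.length ≤ n := by simpa using h2
    have h5 : (m : ℤ) * (w.length : ℤ) ≤ m * n :=
      mul_le_mul_of_nonneg_left (by exact_mod_cast hwn) hm0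
    refine ⟨w, hwn, ?_⟩
    rw [run_congr hm0 hδ a a' b b' ((m * n : ℕ) : ℤ) ha1 hb1 w (by push_cast; exact h5),
      chart_run hm0 hδ a b τ π _ hτ w (0, 0) (by simp; push_cast at hnn' ⊢; linarith)
      (by simp; push_cast at hnn' ⊢; linarith), hprod, hπ0, ← h3, hsm]
  set k := ⌊Real.sqrt c / 4 * n⌋₊ with hk
  refine (card_image_le π (Finset.Icc (-(k : ℤ)) k) (Finset.Icc (-(k : ℤ)) k) _
    ?_).trans ?_
  · intro q hq
    obtain ⟨w, hw, hq'⟩ := hball q hq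
    obtain ⟨x, y, hx, hy, hs, he⟩ := path_of_word δ a' b' w (0, 0)
    refine ⟨_, ?_, ?_, hq'⟩
    all_goals
      have h5 := hn0 n hnn _ _ x y ⟨δ, hgood, fun k _ => hs k⟩
      have h6 := he n hw
      rw [← h6]
      rw [hx, hy] at h5
      simp only [Int.cast_zero, sub_zero] at h5
      rw [Finset.mem_Icc, ← abs_le]
    · have h7 : ((|x n| : ℤ) : ℝ) ≤ Real.sqrt c / 4 * n := by rw [Int.cast_abs]; exact h5.1
      have h8 : (x n).natAbs ≤ k := by
        apply Nat.le_floor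
        rw [Nat.cast_natAbs]; exact h7
      show |x n| ≤ (k : ℤ)
      rw [Int.abs_eq_natAbs]; exact_mod_cast h8
    · have h7 : ((|y n| : ℤ) : ℝ) ≤ Real.sqrt c / 4 * n := by rw [Int.cast_abs]; exact h5.2
      have h8 : (y n).natAbs ≤ k := by
        apply Nat.le_floor
        rw [Nat.cast_natAbs]; exact h7
      show |y n| ≤ (k : ℤ)
      rw [Int.abs_eq_natAbs]; exact_mod_cast h8
  · rw [Int.card_Icc]
    have e : ((k : ℤ) + 1 - -(k : ℤ)).toNat = 2 * k + 1 := by omega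
    rw [e]
    exact_mod_cast le_max_left _ _

end Vale.Agent.P192.R2.H102
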