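import Vale.Agent.P192.R2.H102.PruneO
import Vale.Agent.P192.R2.H819.LongOrbit

set_option linter.all false

/-! P192, round 5, (P3) unconditional. -/

namespace Vale.Agent.P192.R2.H102

open Vale.Agent.P192 Vale.Agent.P192.H437 Vale.Agent.P192.R2.H360

theorem longStmt : LongStmt := fun G _ _ hG S hS C => H819.long_orbit G hG S hS C

/-- (P3) orbits are bounded -/
theorem prune_orbits (G : Type) [Group G] [Group.IsFinitelyPresented G] (hG : IsMulTorsion G)
    (S : Set G) (hSf : S.Finite) (hS : Subgroup.closure S = ⊤) (m : ℕ) :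
    ∃ M : ℕ, ∀ (Y A : Type) (Ω Ω₀ : Set (Y → A)) (act : (Y → A) → (G →* Equiv.Perm Y))
      (Rd : Y → Finset Y), Prune S m Ω Ω₀ act Rd →
      ∀ ω ∈ Ω, ∀ y, {z | ∃ g, act ω g y = z}.encard ≤ M :=
  prune_orbits_of longStmt G hG S hSf hS m

end Vale.Agent.P192.R2.H102
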