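import Vale.Agent.P192.R2.H360.Prune

set_option linter.all false

/-! P192, round 5, (P3): orbits are bounded. -/

namespace Vale.Agent.P192.R2.H102

open Vale.Agent.P192 Vale.Agent.P192.H437 Vale.Agent.P192.R2.H360

/-- (P2) as a hypothesis -/
def LongStmt : Prop := ∀ (G : Type) [Group G] [Group.IsFinitelyPresented G] (hG : IsMulTorsion G)
    (S : Set G) (hS : Subgroup.closure S = ⊤) (C : ℕ),
    ∃ n0 : ℕ, ∀ (X : Type) [MulAction G X] [MulAction.IsPretransitive G X] (x y : X) (n : ℕ),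
      hop S n x y → (∀ k, k < n → ¬ hop S k x y) →
      (Set.univ : Set X).encard ≤ ((C * n : ℕ) : ℕ∞) → n ≤ n0

section

variable {G : Type} [Group G] {S : Set G} {m : ℕ} {Y A : Type}
  {Ω Ω₀ : Set (Y → A)} {act : (Y → A) → (G →* Equiv.Perm Y)} {Rd : Y → Finset Y}

open Classical in
/-- the points read along a word -/
noncomputable def rds (act : (Y → A) → (G →* Equiv.Perm Y)) (Rd : Y → Finset Y) (ω : Y → A)
    (y : Y) : List G → Finset Y
  | [] => ∅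
  | _ :: w => rds act Rd ω y w ∪ Rd (act ω w.prod y)

theorem rds_card (hP : Prune S m Ω Ω₀ act Rd) (ω : Y → A) (y : Y) (w : List G) :
    (rds act Rd ω y w).card ≤ m * w.length := by
  classical
  induction w with
  | nil => simp [rds]
  | cons s w ih =>
    rw [rds, List.length_cons, mul_add, mul_one]
    refine le_trans ?_ (add_le_add ih (hP.card (act ω w.prod y)))
    convert Finset.card_union_le _ _

theorem rds_self (hP : Prune S m Ω Ω₀ act Rd) (ω : Y → A) (y : Y) (w : List G) (hw : w ≠ []) :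
    y ∈ rds act Rd ω y w := by
  classical
  induction w with
  | nil => exact absurd rfl hw
  | cons s w ih =>
    rw [rds, Finset.mem_union]
    by_cases h : w = []
    · subst h
      right
      rw [List.prod_nil, map_one, Equiv.Perm.one_apply]
      exact hP.self y
    · left; exact ih h

theorem rds_act (hP : Prune S m Ω Ω₀ act Rd) {ω ω' : Y → A} (h : ω ∈ Ω) (h' : ω' ∈ Ω)
    (y : Y) (w : List G) (hw : ∀ s ∈ w, s ∈ S ∨ s⁻¹ ∈ S)
    (hK : ∀ k ∈ rds act Rd ω y w, ω' k = ω k) : act ω' w.prod y = act ω w.prod y := by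
  classical
  induction w with
  | nil => rw [List.prod_nil, map_one, map_one]
  | cons s w ih =>
    rw [List.prod_cons, map_mul, map_mul, Equiv.Perm.mul_apply, Equiv.Perm.mul_apply,
      ih (fun t ht => hw t (List.mem_cons_of_mem _ ht))
        (fun k hk => hK k (by rw [rds, Finset.mem_union]; exact Or.inl hk))]
    exact hP.loc s (hw s List.mem_cons_self) ω' ω (Or.inl h') (Or.inl h) _
      (fun k hk => hK k (by rw [rds, Finset.mem_union]; exact Or.inr hk))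

theorem orbit_small (hS : Subgroup.closure S = ⊤) (hP : Prune S m Ω Ω₀ act Rd) {ω : Y → A}
    (hω : ω ∈ Ω) (y : Y) (w : List G) (hw : ∀ s ∈ w, s ∈ S ∨ s⁻¹ ∈ S) (hne : w ≠ []) :
    ∃ ω' ∈ Ω, act ω' w.prod y = act ω w.prod y ∧
      {z | ∃ g, act ω' g y = z}.encard ≤ ((m ^ 4 * w.length : ℕ) : ℕ∞) := by
  classical
  obtain ⟨ω', hω', o, ho, K', hKK, hK1, hK2, hK3⟩ := hP.glue ω hω (rds act Rd ω y w)
  refine ⟨ω', hω', rds_act hP hω hω' y w hw hK2, ?_⟩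
  set K₁ : Set Y := ⋃ k ∈ (K' : Set Y), {z | k ∈ Rd z} with hK₁
  set K₂ : Set Y := ⋃ z ∈ K₁, {z' | ∃ g, act o g z = z'} with hK₂
  have c0 : (K' : Set Y).encard ≤ ((m * (m * w.length) : ℕ) : ℕ∞) := by
    rw [Set.encard_coe_eq_coe_finsetCard]
    exact_mod_cast hK1.trans (Nat.mul_le_mul_left _ (rds_card hP ω y w))
  have c1 : K₁.encard ≤ ((m * (m * w.length) * m : ℕ) : ℕ∞) :=
    H630.biUnion_le _ _ _ _ c0 fun k _ => hP.dual k
  have c2 : K₂.encard ≤ ((m * (m * w.length) * m * m : ℕ) : ℕ∞) :=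
    H630.biUnion_le _ _ _ _ c1 fun z _ => hP.back o ho z
  have hsub : K₁ ⊆ K₂ := by
    intro z hz
    rw [hK₂, Set.mem_iUnion₂]
    exact ⟨z, hz, 1, by rw [map_one, Equiv.Perm.one_apply]⟩
  have hy : y ∈ K₂ := by
    apply hsub
    rw [hK₁, Set.mem_iUnion₂]
    exact ⟨y, hKK (rds_self hP ω y w hne), hP.self y⟩
  have hinv : ∀ s, (s ∈ S ∨ s⁻¹ ∈ S) → ∀ z ∈ K₂, act ω' s z ∈ K₂ := by
    intro s hs z hz
    by_contra hcon
    have h1 : act ω' s z ∉ K₁ := fun h => hcon (hsub h)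
    have h2 : ∀ k ∈ Rd (act ω' s z), ω' k = o k := by
      intro k hk
      apply hK3
      intro hk'
      apply h1
      rw [hK₁, Set.mem_iUnion₂]
      exact ⟨k, hk', hk⟩
    have h3 := hP.loc s⁻¹ (by rw [inv_inv]; exact hs.symm) ω' o (Or.inl hω') (Or.inr ho) _ h2
    have h4 : act ω' s⁻¹ (act ω' s z) = z := by
      rw [← Equiv.Perm.mul_apply, ← map_mul, inv_mul_cancel, map_one, Equiv.Perm.one_apply]
    rw [h4] at h3
    have h5 : act o s z = act ω' s z := by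
      conv_lhs => rw [h3]
      rw [← Equiv.Perm.mul_apply, ← map_mul, mul_inv_cancel, map_one, Equiv.Perm.one_apply]
    apply hcon
    rw [hK₂, Set.mem_iUnion₂] at hz ⊢
    obtain ⟨z₁, hz₁, g, hg⟩ := hz
    refine ⟨z₁, hz₁, s * g, ?_⟩
    show act o (s * g) z₁ = act ω' s z
    rw [map_mul, Equiv.Perm.mul_apply, hg, h5]
  have hall : ∀ v : List G, (∀ s ∈ v, s ∈ S ∨ s⁻¹ ∈ S) → act ω' v.prod y ∈ K₂ := by
    intro v
    induction v with
    | nil => intro _; rw [List.prod_nil, map_one, Equiv.Perm.one_apply]; exact hy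
    | cons s v ih =>
      intro hv
      rw [List.prod_cons, map_mul, Equiv.Perm.mul_apply]
      exact hinv s (hv s List.mem_cons_self) _ (ih fun t ht => hv t (List.mem_cons_of_mem _ ht))
  refine (Set.encard_le_encard (t := K₂) ?_).trans (c2.trans (le_of_eq ?_))
  · rintro z ⟨g, rfl⟩
    obtain ⟨v, hv, rfl⟩ := exists_list S hS g
    exact hall v hv
  · congr 1; ring

theorem reach (HL : LongStmt) [Group.IsFinitelyPresented G] (hG : IsMulTorsion G)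
    (hS : Subgroup.closure S = ⊤) (m : ℕ) :
    ∃ n0 : ℕ, ∀ (Y A : Type) (Ω Ω₀ : Set (Y → A)) (act : (Y → A) → (G →* Equiv.Perm Y))
      (Rd : Y → Finset Y), Prune S m Ω Ω₀ act Rd → ∀ ω ∈ Ω, ∀ (y : Y) (g : G),
      ∃ ω₁ ∈ Ω, ∃ w : List G, (∀ s ∈ w, s ∈ S ∨ s⁻¹ ∈ S) ∧ w.length ≤ n0 ∧
        act ω₁ w.prod y = act ω g y := by
  classical
  obtain ⟨n0, hn0⟩ := HL G hG S hS (m ^ 4)
  refine ⟨n0, ?_⟩
  intro Y A Ω Ω₀ act Rd hP ω hω y g
  have hex : ∃ n : ℕ, ∃ ω₁ ∈ Ω, ∃ w : List G, (∀ s ∈ w, s ∈ S ∨ s⁻¹ ∈ S) ∧ w.length = n ∧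
      act ω₁ w.prod y = act ω g y := by
    obtain ⟨w, hw, rfl⟩ := exists_list S hS g
    exact ⟨w.length, ω, hω, w, hw, rfl, rfl⟩
  obtain ⟨ω₁, hω₁, w, hw, hlen, hact⟩ := Nat.find_spec hex
  refine ⟨ω₁, hω₁, w, hw, ?_, hact⟩
  by_cases hne : w = []
  · rw [hne]; exact Nat.zero_le _
  obtain ⟨ω', hω', ha, hc⟩ := orbit_small hS hP hω₁ y w hw hne
  letI : MulAction G Y := MulAction.compHom Y (act ω')
  have hsm : ∀ (h : G) (z : Y), h • z = act ω' h z := fun h z => rfl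
  have hmem : act ω g y ∈ MulAction.orbit G y := ⟨w.prod, by
    show act ω' w.prod y = _
    rw [ha, hact]⟩
  refine hn0 (MulAction.orbit G y) ⟨y, MulAction.mem_orbit_self y⟩ ⟨act ω g y, hmem⟩ w.length
    ⟨w, hw, le_rfl, ?_⟩ ?_ ?_
  · apply Subtype.ext
    show act ω' w.prod y = _
    rw [ha, hact]
  · intro k hk hh
    obtain ⟨v, hv1, hv2, hv3⟩ := H577.hop_val hh
    refine Nat.find_min hex (m := v.length) (by omega) ⟨ω', hω', v, hv1, rfl, hv3⟩
  · rw [Set.encard_univ, ENat.card_coe_set_eq]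
    refine (Set.encard_le_encard ?_).trans hc
    rintro z ⟨h, rfl⟩
    exact ⟨h, rfl⟩

theorem count (hP : Prune S m Ω Ω₀ act Rd) {q : ℕ} (hq : {s | s ∈ S ∨ s⁻¹ ∈ S}.encard ≤ q)
    (y : Y) (j : ℕ) :
    {z | ∃ ω₁ ∈ Ω, ∃ w : List G, (∀ s ∈ w, s ∈ S ∨ s⁻¹ ∈ S) ∧ w.length ≤ j ∧
        act ω₁ w.prod y = z}.encard ≤ (((1 + q * m) ^ j : ℕ) : ℕ∞) := by
  induction j with
  | zero =>
    refine (Set.encard_le_encard (t := {y}) ?_).trans ?_
    · rintro z ⟨ω₁, -, w, -, h2, rfl⟩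
      have : w = [] := List.length_eq_zero_iff.1 (by omega)
      subst this
      rw [List.prod_nil, map_one, Equiv.Perm.one_apply]
      rfl
    · rw [Set.encard_singleton]; simp
  | succ j ih =>
    rw [pow_succ]
    refine (Set.encard_le_encard (t := ⋃ p ∈ {z | ∃ ω₁ ∈ Ω, ∃ w : List G,
      (∀ s ∈ w, s ∈ S ∨ s⁻¹ ∈ S) ∧ w.length ≤ j ∧ act ω₁ w.prod y = z},
      ({p} ∪ ⋃ s ∈ {s | s ∈ S ∨ s⁻¹ ∈ S}, {z | ∃ ω ∈ Ω, act ω s p = z})) ?_).trans
      (H630.biUnion_le _ _ _ _ ih fun p _ => ?_)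
    · rintro z ⟨ω₁, h0, w, h1, h2, rfl⟩
      rw [Set.mem_iUnion₂]
      cases w with
      | nil =>
        refine ⟨act ω₁ ([] : List G).prod y, ⟨ω₁, h0, [], by simp, by simp, rfl⟩, Or.inl rfl⟩
      | cons s w =>
        refine ⟨act ω₁ w.prod y, ⟨ω₁, h0, w, fun t ht => h1 t (List.mem_cons_of_mem _ ht), ?_, rfl⟩,
          Or.inr ?_⟩
        · rw [List.length_cons] at h2; omega
        · rw [Set.mem_iUnion₂]
          refine ⟨s, h1 s List.mem_cons_self, ω₁, h0, ?_⟩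
          rw [List.prod_cons, map_mul, Equiv.Perm.mul_apply]
    · refine (Set.encard_union_le _ _).trans ?_
      rw [Set.encard_singleton]
      have h := H630.biUnion_le {s | s ∈ S ∨ s⁻¹ ∈ S} (fun s => {z | ∃ ω ∈ Ω, act ω s p = z})
        q m hq fun s hs => hP.few s hs p
      calc 1 + _ ≤ 1 + ((q * m : ℕ) : ℕ∞) := by gcongr
        _ = _ := by push_cast; rfl

end

/-- (P3) orbits are bounded, from (P2) -/
theorem prune_orbits_of (HL : LongStmt) (G : Type) [Group G] [Group.IsFinitelyPresented G]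
    (hG : IsMulTorsion G) (S : Set G) (hSf : S.Finite) (hS : Subgroup.closure S = ⊤) (m : ℕ) :
    ∃ M : ℕ, ∀ (Y A : Type) (Ω Ω₀ : Set (Y → A)) (act : (Y → A) → (G →* Equiv.Perm Y))
      (Rd : Y → Finset Y), Prune S m Ω Ω₀ act Rd →
      ∀ ω ∈ Ω, ∀ y, {z | ∃ g, act ω g y = z}.encard ≤ M := by
  obtain ⟨n0, hn0⟩ := reach HL hG hS m
  have hfin : {s | s ∈ S ∨ s⁻¹ ∈ S}.Finite := by
    have e : {s | s ∈ S ∨ s⁻¹ ∈ S} = S ∪ (fun s : G => s⁻¹) '' S := by
      ext s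
      constructor
      · rintro (h | h)
        · exact Or.inl h
        · exact Or.inr ⟨s⁻¹, h, inv_inv s⟩
      · rintro (h | ⟨t, ht, rfl⟩)
        · exact Or.inl h
        · right; show (t⁻¹)⁻¹ ∈ S; rw [inv_inv]; exact ht
    rw [e]
    exact hSf.union (hSf.image _)
  obtain ⟨q, hq⟩ : ∃ q : ℕ, {s | s ∈ S ∨ s⁻¹ ∈ S}.encard ≤ q :=
    ⟨{s | s ∈ S ∨ s⁻¹ ∈ S}.ncard, by rw [hfin.cast_ncard_eq]⟩
  refine ⟨(1 + q * m) ^ n0, ?_⟩
  intro Y A Ω Ω₀ act Rd hP ω hω y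
  refine (Set.encard_le_encard ?_).trans (count hP hq y n0)
  rintro z ⟨g, rfl⟩
  exact hn0 Y A Ω Ω₀ act Rd hP ω hω y g

end Vale.Agent.P192.R2.H102
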