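import Vale.Agent.P192.R2.H102.PruneC

set_option linter.all false

/-! P192, round 5, (P4), (P5): uniform form; cocycles. -/

namespace Vale.Agent.P192.R2.H102

open Vale.Agent.P192 Vale.Agent.P192.H437 Vale.Agent.P192.R2.H360

/-- (P4) uniform form -/
theorem prune_uniform (G : Type) [Group G] [Group.IsFinitelyPresented G] (hG : IsMulTorsion G)
    (S : Set G) (hS : Subgroup.closure S = ⊤) (m : ℕ) :
    ∃ N : Subgroup G, N.Normal ∧ N.FiniteIndex ∧
      ∀ (Y A : Type) (Ω Ω₀ : Set (Y → A)) (act : (Y → A) → (G →* Equiv.Perm Y))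
      (Rd : Y → Finset Y), Prune S m Ω Ω₀ act Rd → ∀ ω ∈ Ω, ∀ g ∈ N, act ω g = 1 := by
  obtain ⟨M0, σ, hσS, hσ, -⟩ := exists_tuple G S hS
  obtain ⟨M, hM⟩ := prune_orbits G hG (Set.range σ) (Set.finite_range σ) hσ m
  obtain ⟨N, h1, h2, h3⟩ := exists_kernel.{0, 0} G M
  refine ⟨N, h1, h2, ?_⟩
  intro Y A Ω Ω₀ act Rd hP ω hω g hg
  have hP' : Prune (Set.range σ) m Ω Ω₀ act Rd :=
    { hP with
      loc := fun s hs => hP.loc s (hs.imp (fun h => hσS h) fun h => hσS h)
      few := fun s hs => hP.few s (hs.imp (fun h => hσS h) fun h => hσS h) }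
  apply Equiv.ext
  intro y
  letI : MulAction G Y := MulAction.compHom Y (act ω)
  exact h3 Y y (hM Y A Ω Ω₀ act Rd hP' ω hω y) g hg

/-- the action of `G` on `H` defined by a configuration -/
@[reducible] def cocAct {G H A Z : Type} [Group G] [Group H] [MulAction H Z]
    (c : G → (H → A) → Z → H)
    (hc : ∀ g g' ω ζ, c (g * g') ω ζ =
      c g (fun k => ω (k * c g' ω ζ)) (c g' ω ζ • ζ) * c g' ω ζ)
    (h1 : ∀ ω ζ, c 1 ω ζ = 1) (ζ : Z) (ω : H → A) : MulAction G H where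
  smul g h := c g (fun k => ω (k * h)) (h • ζ) * h
  one_smul h := by
    show c 1 _ _ * h = h
    rw [h1, one_mul]
  mul_smul g g' h := by
    show c (g * g') (fun k => ω (k * h)) (h • ζ) * h =
      c g (fun k => ω (k * (c g' (fun k => ω (k * h)) (h • ζ) * h)))
        ((c g' (fun k => ω (k * h)) (h • ζ) * h) • ζ) * (c g' (fun k => ω (k * h)) (h • ζ) * h)
    rw [hc]
    simp only [mul_assoc, mul_smul]

/-- (P5) cocycles over `A^H × Z` -/
theorem cocycle_bounded (G : Type) [Group G] [Group.IsFinitelyPresented G] (hG : IsMulTorsion G)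
    (H A Z : Type) [Group H] [MulAction H Z] (a₀ : A) (c : G → (H → A) → Z → H)
    (hc : ∀ g g' ω ζ, c (g * g') ω ζ =
      c g (fun k => ω (k * c g' ω ζ)) (c g' ω ζ • ζ) * c g' ω ζ)
    (h1 : ∀ ω ζ, c 1 ω ζ = 1)
    (hloc : ∀ g, ∃ W : Finset H, ∀ ω ω' : H → A, ∀ ζ, (∀ k ∈ W, ω k = ω' k) →
      c g ω ζ = c g ω' ζ)
    (hfin : ∀ g, {h | ∃ ω ζ, c g ω ζ = h}.Finite)
    (hback : {h | ∃ g ζ, c g (fun _ => a₀) ζ = h}.Finite) :
    ∃ N : Subgroup G, N.Normal ∧ N.FiniteIndex ∧ ∀ g ∈ N, ∀ ω ζ, c g ω ζ = 1 := by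
  classical
  obtain ⟨M0, σ, -, hσ, -⟩ := exists_tuple G Set.univ Subgroup.closure_univ
  set S : Set G := Set.range σ with hS
  have hT : {s | s ∈ S ∨ s⁻¹ ∈ S}.Finite := by
    have e : {s | s ∈ S ∨ s⁻¹ ∈ S} = S ∪ (fun s : G => s⁻¹) '' S := by
      ext s
      constructor
      · rintro (h | h)
        · exact Or.inl h
        · exact Or.inr ⟨s⁻¹, h, inv_inv s⟩
      · rintro (h | ⟨t, ht, rfl⟩)
        · exact Or.inl h
        · right; show (t⁻¹)⁻¹ ∈ S; rw [inv_inv]; exact ht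
    rw [e]
    exact (Set.finite_range σ).union ((Set.finite_range σ).image _)
  choose W hW using hloc
  set W' : Finset H := insert 1 (hT.toFinset.biUnion W) with hW'
  have hWsub : ∀ s, (s ∈ S ∨ s⁻¹ ∈ S) → W s ⊆ W' := by
    intro s hs k hk
    rw [hW', Finset.mem_insert]
    right
    rw [Finset.mem_biUnion]
    exact ⟨s, hT.mem_toFinset.2 hs, hk⟩
  have hU : (⋃ s ∈ {s | s ∈ S ∨ s⁻¹ ∈ S}, {h | ∃ ω ζ, c s ω ζ = h}).Finite :=
    hT.biUnion fun s _ => hfin s
  set U := ⋃ s ∈ {s | s ∈ S ∨ s⁻¹ ∈ S}, {h | ∃ ω ζ, c s ω ζ = h} with hUdef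
  set m := W'.card + U.ncard + {h | ∃ g ζ, c g (fun _ => a₀) ζ = h}.ncard + 1 with hm
  obtain ⟨N, n1, n2, n3⟩ := prune_uniform G hG S hσ m
  refine ⟨N, n1, n2, ?_⟩
  intro g hg ω ζ
  let act : (H → A) → (G →* Equiv.Perm H) := fun ω =>
    letI := cocAct c hc h1 ζ ω
    MulAction.toPermHom G H
  have hact : ∀ ω g h, act ω g h = c g (fun k => ω (k * h)) (h • ζ) * h := fun ω g h => rfl
  let Rd : H → Finset H := fun h => W'.image fun k => k * h
  have hle : ∀ (X : Set H) (b : ℕ), X.Finite → ∀ h : H, X.ncard ≤ m →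
      ((fun x => x * h) '' X).encard ≤ m := by
    intro X b hX h hb
    refine (Set.encard_image_le _ _).trans ?_
    rw [← hX.cast_ncard_eq]
    exact_mod_cast hb
  have hP : Prune S m (Set.univ : Set (H → A)) {fun _ => a₀} act Rd := by
    refine ⟨?_, ?_, ?_, ?_, ?_, ?_, ?_⟩
    · intro y
      exact Finset.mem_image.2 ⟨1, Finset.mem_insert_self _ _, one_mul y⟩
    · intro y
      exact Finset.card_image_le.trans (by omega)
    · intro k
      refine (Set.encard_le_encard (t := (fun x : H => x⁻¹ * k) '' (W' : Set H)) ?_).trans ?_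
      · intro y hy
        obtain ⟨x, hx, hxy⟩ := Finset.mem_image.1 hy
        refine ⟨x, hx, ?_⟩
        show x⁻¹ * k = y
        rw [← hxy, inv_mul_cancel_left]
      · refine (Set.encard_image_le _ _).trans ?_
        rw [Set.encard_coe_eq_coe_finsetCard]
        have : W'.card ≤ m := by omega
        exact_mod_cast this
    · intro s hs ω ω' _ _ y hk
      rw [hact, hact]
      congr 1
      apply hW s
      intro k hk'
      exact hk (k * y) (Finset.mem_image.2 ⟨k, hWsub s hs hk', rfl⟩)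
    · intro o ho y
      rw [Set.mem_singleton_iff] at ho
      subst ho
      refine (Set.encard_le_encard ?_).trans
        (hle {h | ∃ g ζ, c g (fun _ => a₀) ζ = h} 0 hback y (by omega))
      rintro z ⟨g, rfl⟩
      exact ⟨_, ⟨g, y • ζ, rfl⟩, rfl⟩
    · intro s hs y
      refine (Set.encard_le_encard ?_).trans (hle U 0 hU y (by omega))
      rintro z ⟨ω, -, rfl⟩
      refine ⟨c s (fun k => ω (k * y)) (y • ζ), ?_, rfl⟩
      rw [hUdef, Set.mem_iUnion₂]
      exact ⟨s, hs, _, _, rfl⟩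
    · intro ω _ K
      refine ⟨fun k => if k ∈ K then ω k else a₀, Set.mem_univ _, fun _ => a₀, rfl, K,
        Finset.Subset.refl _, ?_, ?_, ?_⟩
      · have : 1 ≤ m := by omega
        nlinarith
      · intro k hk
        simp only [hk, if_true]
      · intro k hk
        simp only [hk, if_false]
  have h := n3 H A Set.univ {fun _ => a₀} act Rd hP ω (Set.mem_univ _) g hg
  have h2 : act ω g 1 = 1 := by rw [h]; rfl
  rw [hact, mul_one, one_smul] at h2
  simpa only [mul_one] using h2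

end Vale.Agent.P192.R2.H102
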