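import Vale.Agent.P192.R2.H360.R.Defs

set_option linter.all false

/-! Machines over a group: row R5b. -/

namespace Vale.Agent.P192.R2.H102.RR

open SimpleGraph Vale.Agent.P192 Vale.Agent.P192.H437 Vale.Agent.P192.H593
  Vale.Agent.P192.R2.H577 Vale.Agent.P192.R2.H360.R
open scoped Pointwise

universe u v

theorem cn_exit {X : Type u} {Γ : SimpleGraph X} {A D : Set X} {x y : X} (h : cn Γ A x y)
    (hx : x ∈ D) (hy : y ∉ D) : ∃ v ∈ D, v ∈ A ∧ ∃ w, w ∉ D ∧ Γ.Adj v w := by
  induction h using Relation.ReflTransGen.head_induction_on with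
  | refl => exact absurd hx hy
  | @head p q hst _ ih =>
    by_cases hc : q ∈ D
    · exact ih hc
    · exact ⟨p, hx, hst.1, q, hc, hst.2.2⟩

section

variable {G : Type v} [Group G] {S : Set G} {H A Q : Type} [Group H] [DecidableEq H]
  {T : Finset H} {X : Type u} [MulAction G X] {hd : X → H} {tp : X → H → A} {st : X → Q}

theorem fb_of_adj {D : Set X} {v w : X} (hv : v ∈ D) (hw : w ∉ D) (h : (sch S X).Adj v w) :
    v ∈ fb S D := by
  obtain ⟨-, s, hs, rfl⟩ := h
  exact ⟨s, hs, Or.inl ⟨hv, hw⟩⟩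

theorem hd_word (hL : Loc S T X hd tp st) (x : X) (w : List G) (hw : ∀ s ∈ w, s ∈ S ∨ s⁻¹ ∈ S) :
    (hd x)⁻¹ * hd (w.prod • x) ∈ T ^ w.length := by
  induction w with
  | nil => simp
  | cons s w ih =>
    have h1 := ih fun t ht => hw t (List.mem_cons_of_mem _ ht)
    have h2 := hL.move (w.prod • x) s (hw s List.mem_cons_self)
    rw [List.prod_cons, mul_smul, List.length_cons, pow_succ]
    have : (hd x)⁻¹ * hd (s • w.prod • x) =
        ((hd x)⁻¹ * hd (w.prod • x)) * ((hd (w.prod • x))⁻¹ * hd (s • w.prod • x)) := by group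
    rw [this]
    exact Finset.mul_mem_mul h1 h2

theorem near_hop (hL : Loc S T X hd tp st) {x v : X} {j c : ℕ} (h : hop S j x v) {p : H}
    (hp : (hd v)⁻¹ * p ∈ T) (hj : j + 1 ≤ c) : (hd x)⁻¹ * p ∈ T ^ c := by
  obtain ⟨w, h1, h2, rfl⟩ := h
  have h3 := hd_word hL x w h1
  have h4 : (hd x)⁻¹ * p = ((hd x)⁻¹ * hd (w.prod • x)) * ((hd (w.prod • x))⁻¹ * p) := by group
  rw [h4]
  have h5 : T ^ w.length * T ⊆ T ^ c := by
    rw [← pow_succ]
    exact Finset.pow_subset_pow_right hL.one (by omega)
  exact h5 (Finset.mul_mem_mul h3 hp)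

theorem encard_sum {X : Type u} (B : ℕ → Set X) (hB : ∀ i j, i ≠ j → Disjoint (B i) (B j))
    (W : Set X) (n : ℕ) (hW : ∀ i < n, B i ⊆ W) :
    ∑ i ∈ Finset.range n, (B i).encard ≤ W.encard := by
  have key : ∀ k ≤ n, ∑ i ∈ Finset.range k, (B i).encard = (⋃ i ∈ Finset.range k, B i).encard := by
    intro k
    induction k with
    | zero => intro _; simp
    | succ k ih =>
      intro hk
      rw [Finset.sum_range_succ, ih (by omega), Finset.range_add_one, Finset.set_biUnion_insert,
        Set.union_comm, Set.encard_union_eq]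
      rw [Set.disjoint_left]
      intro z hz hz'
      rw [Set.mem_iUnion₂] at hz
      obtain ⟨i, hi, hzi⟩ := hz
      rw [Finset.mem_range] at hi
      exact Set.disjoint_left.1 (hB i k (by omega)) hzi hz'
  rw [key n le_rfl]
  apply Set.encard_le_encard
  intro z hz
  rw [Set.mem_iUnion₂] at hz
  obtain ⟨i, hi, hzi⟩ := hz
  exact hW i (Finset.mem_range.1 hi) hzi

/-- counting the configurations whose tapes differ from a given one near three places only -/
theorem count_conf [Finite A] [Finite Q] (hL : Loc S T X hd tp st) (c : ℕ) (Z : Finset H)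
    (hZ : ∀ z, hd z ∈ Z) (a b : X) :
    {z : X | ∀ p, tp z p ≠ tp a p → (hd z)⁻¹ * p ∈ T ^ c ∨ (hd a)⁻¹ * p ∈ T ^ c ∨
      (hd b)⁻¹ * p ∈ T ^ c}.encard ≤
      ((Nat.card Q * Nat.card ((↥(T ^ c) → A) × (↥(T ^ c) → A) × (↥(T ^ c) → A)) * Z.card : ℕ) :
        ℕ∞) := by
  classical
  set W := {z : X | ∀ p, tp z p ≠ tp a p → (hd z)⁻¹ * p ∈ T ^ c ∨ (hd a)⁻¹ * p ∈ T ^ c ∨
      (hd b)⁻¹ * p ∈ T ^ c} with hW
  let Φ : W → Z × Q × ((↥(T ^ c) → A) × (↥(T ^ c) → A) × (↥(T ^ c) → A)) := fun z =>
    (⟨hd z.1, hZ z.1⟩, st z.1, (fun t => tp z.1 (hd z.1 * t.1)), (fun t => tp z.1 (hd a * t.1)),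
      fun t => tp z.1 (hd b * t.1))
  have hinj : Function.Injective Φ := by
    rintro ⟨z, hz⟩ ⟨z', hz'⟩ he
    have e1 : hd z = hd z' := congrArg Subtype.val (congrArg Prod.fst he)
    have e2 : st z = st z' := congrArg (fun t => t.2.1) he
    have e3 := congrArg (fun t => t.2.2.1) he
    have e4 := congrArg (fun t => t.2.2.2.1) he
    have e5 := congrArg (fun t => t.2.2.2.2) he
    apply Subtype.ext
    refine hL.inj z z' e1 e2 ?_
    funext p
    by_cases h1 : (hd z)⁻¹ * p ∈ T ^ c
    · have := congrFun e3 ⟨_, h1⟩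
      change tp z (hd z * ((hd z)⁻¹ * p)) = tp z' (hd z' * ((hd z)⁻¹ * p)) at this
      rwa [← e1, mul_inv_cancel_left] at this
    by_cases h2 : (hd a)⁻¹ * p ∈ T ^ c
    · have := congrFun e4 ⟨_, h2⟩
      change tp z (hd a * ((hd a)⁻¹ * p)) = tp z' (hd a * ((hd a)⁻¹ * p)) at this
      rwa [mul_inv_cancel_left] at this
    by_cases h3 : (hd b)⁻¹ * p ∈ T ^ c
    · have := congrFun e5 ⟨_, h3⟩
      change tp z (hd b * ((hd b)⁻¹ * p)) = tp z' (hd b * ((hd b)⁻¹ * p)) at this
      rwa [mul_inv_cancel_left] at this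
    have k1 : tp z p = tp a p := by
      by_contra hne
      rcases hz p hne with h | h | h <;> contradiction
    have k2 : tp z' p = tp a p := by
      by_contra hne
      rw [e1] at h1
      rcases hz' p hne with h | h | h <;> contradiction
    rw [k1, k2]
  have hfin : Finite W := Finite.of_injective Φ hinj
  rw [← Set.Finite.cast_ncard_eq hfin]
  have hcard : Nat.card W ≤ Nat.card Q *
        Nat.card ((↥(T ^ c) → A) × (↥(T ^ c) → A) × (↥(T ^ c) → A)) * Z.card := by
    refine (Nat.card_le_card_of_injective Φ hinj).trans (le_of_eq ?_)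
    rw [Nat.card_prod, Nat.card_prod, Nat.card_eq_fintype_card (α := Z), Fintype.card_coe]
    ring
  exact_mod_cast hcard

end

theorem r5b : R5b.{u, v} := by
  classical
  intro G _ _ hG S hSf hS H A Q _ _ _ _ T K
  refine ⟨Nat.card Q * Nat.card ((↥(T ^ (2 * K + 1)) → A) × (↥(T ^ (2 * K + 1)) → A) ×
    (↥(T ^ (2 * K + 1)) → A)), ?_⟩
  intro X _ _ hd tp st hL hsep Z hZ a b hab hD
  haveI : Nonempty X := ⟨a⟩
  have hc : (sch S X).Connected := sch_connected hS
  set N := (sch S X).dist a b with hN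
  have hNpos : 0 < N := hc.pos_dist_of_ne hab
  let U : ℕ → Set X := fun i => {w | i < (sch S X).dist a w}
  let C : ℕ → Set X := fun i => {z | ¬ cn (sch S X) (U i) z b}
  have hbU : ∀ i < N, b ∈ U i := fun i hi => hi
  have hmem : ∀ i < N, ∀ z, cn (sch S X) (U i) z b → z ∈ U i := by
    intro i hi z hz
    exact cn_mem (cn_symm hz) (hbU i hi)
  have hadj : ∀ (z : X) (s : G), (s ∈ S ∨ s⁻¹ ∈ S) → s • z = z ∨ (sch S X).Adj z (s • z) := by
    intro z s hs
    by_cases h : s • z = z
    · exact Or.inl h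
    · exact Or.inr ⟨fun h' => h h'.symm, s, hs, rfl⟩
  have hdist : ∀ z w, (sch S X).Adj z w → (sch S X).dist a w ≤ (sch S X).dist a z + 1 := by
    intro z w h
    have h1 := hc.dist_triangle (u := a) (v := z) (w := w)
    have h2 : (sch S X).dist z w = 1 := dist_eq_one_iff_adj.2 h
    omega
  -- nested
  have hnest : ∀ i < N - 1, ∀ z ∈ C i, ∀ u, (u = z ∨ (sch S X).Adj z u) → u ∈ C (i + 1) := by
    intro i hi z hz u hu hcn
    apply hz
    have h1 : u ∈ U (i + 1) := hmem (i + 1) (by omega) u hcn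
    have h2 : cn (sch S X) (U i) u b :=
      cn_mono (fun w hw => lt_trans (Nat.lt_succ_self i) hw) hcn
    rcases hu with rfl | hu
    · exact h2
    · have h3 : u ∈ U i := lt_trans (Nat.lt_succ_self i) h1
      have h4 : z ∈ U i := by
        have := hdist z u hu
        show i < (sch S X).dist a z
        have h5 : i + 1 < (sch S X).dist a u := h1
        omega
      exact Relation.ReflTransGen.head ⟨h4, h3, hu⟩ h2
  -- boundary points
  have hbd : ∀ i < N, ∀ z ∈ bdry S (C i), ∃ u, (sch S X).Adj z u ∧ cn (sch S X) (U i) u b ∧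
      (sch S X).dist a z = i := by
    intro i hi z hz
    obtain ⟨hzC, s, hs, h⟩ := hz
    obtain ⟨t, ht, htz⟩ : ∃ t : G, (t ∈ S ∨ t⁻¹ ∈ S) ∧ t • z ∉ C i := by
      rcases h with h | h
      · exact ⟨s, Or.inl hs, h⟩
      · exact ⟨s⁻¹, Or.inr (by rwa [inv_inv]), h⟩
    have hcn : cn (sch S X) (U i) (t • z) b := by
      by_contra hne
      exact htz hne
    rcases hadj z t ht with h1 | h1
    · rw [h1] at htz; exact absurd hzC htz
    · refine ⟨t • z, h1, hcn, ?_⟩
      have h2 : i < (sch S X).dist a (t • z) := hmem i hi _ hcn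
      have h3 := hdist z _ h1
      by_contra hne
      apply hzC
      have h4 : z ∈ U i := by
        show i < (sch S X).dist a z
        omega
      exact Relation.ReflTransGen.head ⟨h4, h2, h1⟩ hcn
  refine ⟨C, ⟨a, ?_⟩, ?_, ?_, ?_⟩
  · intro hcn
    have := hmem 0 hNpos a hcn
    change 0 < (sch S X).dist a a at this
    rw [SimpleGraph.dist_self] at this
    exact lt_irrefl _ this
  · intro h
    have : b ∈ C (N - 1) := by rw [h]; trivial
    exact this Relation.ReflTransGen.refl
  · intro i hi z hz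
    refine ⟨hnest i hi z hz z (Or.inl rfl), fun s hs => ⟨?_, ?_⟩⟩
    · apply hnest i hi z hz
      exact hadj z s (Or.inl hs)
    · apply hnest i hi z hz
      exact hadj z s⁻¹ (Or.inr (by rwa [inv_inv]))
  · have hcount := count_conf (S := S) hL (2 * K + 1) Z hZ a b
    refine le_trans ?_ hcount
    -- only the boundaries of `C i`, `i < N`, are disjoint: cut off
    let B : ℕ → Set X := fun i => if i < N then bdry S (C i) else ∅
    have e1 : ∑ i ∈ Finset.range (N - 1), (bdry S (C i)).encard =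
        ∑ i ∈ Finset.range (N - 1), (B i).encard := by
      refine Finset.sum_congr rfl fun i hi => ?_
      rw [Finset.mem_range] at hi
      have : i < N := by omega
      show _ = (if i < N then bdry S (C i) else ∅).encard
      rw [if_pos this]
    rw [e1]
    apply encard_sum B
    · intro i j hij
      rw [Set.disjoint_left]
      intro z hzi hzj
      by_cases h1 : i < N
      · by_cases h2 : j < N
        · change z ∈ (if i < N then bdry S (C i) else ∅) at hzi
          change z ∈ (if j < N then bdry S (C j) else ∅) at hzj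
          rw [if_pos h1] at hzi
          rw [if_pos h2] at hzj
          obtain ⟨-, -, -, k1⟩ := hbd i h1 z hzi
          obtain ⟨-, -, -, k2⟩ := hbd j h2 z hzj
          exact hij (k1.symm.trans k2)
        · change z ∈ (if j < N then bdry S (C j) else ∅) at hzj
          rw [if_neg h2] at hzj
          exact hzj
      · change z ∈ (if i < N then bdry S (C i) else ∅) at hzi
        rw [if_neg h1] at hzi
        exact hzi
    · intro i hi z hz p hp
      have hiN : i < N := by omega
      change z ∈ (if i < N then bdry S (C i) else ∅) at hz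
      rw [if_pos hiN] at hz
      obtain ⟨u, hu1, hu2, hu3⟩ := hbd i hiN z hz
      obtain ⟨D, d1, d2, d3, d4, d5⟩ := hsep z a p hp
      by_cases hbD : b ∈ D
      · obtain ⟨v, hv, h | h⟩ := hD D d3 d5 (Or.inr ⟨d2, hbD⟩)
        · exact Or.inr (Or.inl (near_hop hL h (d4 v hv) le_rfl))
        · exact Or.inr (Or.inr (near_hop hL h (d4 v hv) le_rfl))
      · left
        by_cases huD : u ∈ D
        · obtain ⟨v, hv1, hv2, w, hw1, hw2⟩ := cn_exit hu2 huD hbD
          have hv : v ∈ fb S D := fb_of_adj hv1 hw1 hw2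
          have hv3 : i < (sch S X).dist a v := hv2
          obtain ⟨v', hv', hle⟩ := exit hc D a d2 _ z rfl d1
          have hv'' : v' ∈ fb S D := by
            obtain ⟨k1, w', k2, k3⟩ := hv'
            exact fb_of_adj k1 k3 k2
          have h6 : (sch S X).dist v' v ≤ K := (hop_iff hc).1 (d5 v' hv'' v hv)
          have h7 := hc.dist_triangle (u := a) (v := v') (w := v)
          rw [(sch S X).dist_comm (u := v') (v := a), (sch S X).dist_comm (u := z) (v := a),
            hu3] at hle
          have h8 : hop S K z v' := (hop_iff hc).2 (by omega)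
          exact near_hop hL h8 (d4 v' hv'') (by omega)
        · have hz' : z ∈ fb S D := fb_of_adj d1 huD hu1
          have h8 : hop S 0 z z := (hop_iff hc).2 (by rw [SimpleGraph.dist_self])
          exact near_hop hL h8 (d4 z hz') (by omega)

end Vale.Agent.P192.R2.H102.RR
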