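import Vale.Agent.P192.R2.H360.R.Defs2
import Vale.Agent.P192.H663.Calc

set_option linter.all false

/-! Machines over a group: row R6. -/

namespace Vale.Agent.P192.R2.H102.RR

open Vale.Agent.P192 Vale.Agent.P192.H437 Vale.Agent.P192.H593
  Vale.Agent.P192.R2.H577 Vale.Agent.P192.R2.H360.R
open scoped Pointwise

section

variable {H A Q : Type} [Group H]

/-- translation -/
def tr (k : H) (z : Cf H A Q) : Cf H A Q := (fun p => z.1 (k⁻¹ * p), k * z.2.1, z.2.2)

theorem tr_tr (k k' : H) (z : Cf H A Q) : tr k (tr k' z) = tr (k * k') z := by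
  refine Prod.ext ?_ (Prod.ext ?_ rfl)
  · funext p
    show z.1 (k'⁻¹ * (k⁻¹ * p)) = z.1 ((k * k')⁻¹ * p)
    rw [mul_inv_rev, mul_assoc]
  · show k * (k' * z.2.1) = k * k' * z.2.1
    rw [mul_assoc]

theorem tr_one (z : Cf H A Q) : tr 1 z = z := by
  refine Prod.ext ?_ (Prod.ext ?_ rfl)
  · funext p
    show z.1 ((1 : H)⁻¹ * p) = z.1 p
    rw [inv_one, one_mul]
  · show 1 * z.2.1 = z.2.1
    rw [one_mul]

/-- the head is moved to the origin -/
def nz (z : Cf H A Q) : Cf H A Q := tr z.2.1⁻¹ z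

theorem tr_nz (z : Cf H A Q) : tr z.2.1 (nz z) = z := by
  rw [nz, tr_tr, mul_inv_cancel, tr_one]

variable [DecidableEq H] {G : Type} [Group G] {S : Set G} {T : Finset H}
  [MulAction G (Cf H A Q)]

theorem tr_gen (hM : MA (H := H) (A := A) (Q := Q) G S T) (s : G) (hs : s ∈ S ∨ s⁻¹ ∈ S) (k : H)
    (z : Cf H A Q) : s • tr k z = tr k (s • z) := by
  obtain ⟨h1, h2, h3⟩ := hM.mach s hs
  have h4 := h3 z (tr k z) rfl (by
    intro τ _
    show z.1 (z.2.1 * τ) = z.1 (k⁻¹ * (k * z.2.1 * τ))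
    congr 1
    group)
  obtain ⟨h5, h6, h7⟩ := h4
  change z.2.1⁻¹ * (s • z).2.1 = (k * z.2.1)⁻¹ * (s • tr k z).2.1 at h5
  change (s • z).2.2 = (s • tr k z).2.2 at h6
  refine Prod.ext ?_ (Prod.ext ?_ h6.symm)
  · funext p
    show (s • tr k z).1 p = (s • z).1 (k⁻¹ * p)
    by_cases hp : (k * z.2.1)⁻¹ * p ∈ T
    · have h8 := h7 _ hp
      change (s • z).1 (z.2.1 * ((k * z.2.1)⁻¹ * p)) =
        (s • tr k z).1 ((k * z.2.1) * ((k * z.2.1)⁻¹ * p)) at h8
      rw [mul_inv_cancel_left] at h8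
      rw [← h8]
      congr 1
      group
    · have e1 : (s • tr k z).1 p = (tr k z).1 p := by
        by_contra hne
        exact hp (h2 (tr k z) p hne)
      have e2 : (s • z).1 (k⁻¹ * p) = z.1 (k⁻¹ * p) := by
        by_contra hne
        apply hp
        have := h2 z (k⁻¹ * p) hne
        rwa [mul_inv_rev, mul_assoc]
      rw [e1, e2]
      rfl
  · show (s • tr k z).2.1 = k * (s • z).2.1
    have h9 : (s • tr k z).2.1 = (k * z.2.1) * (z.2.1⁻¹ * (s • z).2.1) := by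
      rw [h5, mul_inv_cancel_left]
    rw [h9]
    group

theorem tr_smul (hM : MA (H := H) (A := A) (Q := Q) G S T) (g : G) (k : H)
    (z : Cf H A Q) : g • tr k z = tr k (g • z) := by
  have hg : g ∈ Subgroup.closure S := by rw [hM.gen]; trivial
  induction hg using Subgroup.closure_induction generalizing z with
  | mem s hs => exact tr_gen hM s (Or.inl hs) k z
  | one => rw [one_smul, one_smul]
  | mul a b _ _ iha ihb => rw [mul_smul, ihb, iha, mul_smul]
  | inv a _ ih =>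
    rw [inv_smul_eq_iff, ih, smul_inv_smul]

/-- if the supports stay near the heads then the orbit is finite -/
theorem orbit_fin (hH : FPB H) [Finite A] [Finite Q] (a0 : A) [Group.IsFinitelyPresented G]
    (hG : ∀ x : G, IsOfFinOrder x) (hM : MA (H := H) (A := A) (Q := Q) G S T) (W : Finset H)
    (z : Cf H A Q) (hz1 : z.2.1 = 1)
    (hz : ∀ (g : G) (p : H), (g • z).1 p ≠ a0 → (g • z).2.1⁻¹ * p ∈ W) :
    (MulAction.orbit G z).Finite := by
  classical
  let N : Subgroup G :=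
    { carrier := {g | ∃ k, g • z = tr k z}
      one_mem' := ⟨1, by rw [one_smul, tr_one]⟩
      mul_mem' := by
        rintro a b ⟨k, hk⟩ ⟨k', hk'⟩
        exact ⟨k' * k, by rw [mul_smul, hk', tr_smul hM, hk, tr_tr]⟩
      inv_mem' := by
        rintro a ⟨k, hk⟩
        refine ⟨k⁻¹, ?_⟩
        rw [inv_smul_eq_iff, tr_smul hM, hk, tr_tr, inv_mul_cancel, tr_one] }
  let F0 : Set (Cf H A Q) := {w | w.2.1 = 1 ∧ ∀ p, w.1 p ≠ a0 → p ∈ W}
  have hF0 : F0.Finite := by
    have : Finite F0 := by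
      refine Finite.of_injective (fun w : F0 => ((fun t : W => w.1.1 t.1), w.1.2.2)) ?_
      rintro ⟨w, hw1, hw2⟩ ⟨w', hw1', hw2'⟩ he
      apply Subtype.ext
      have e3 : w.2.2 = w'.2.2 := (Prod.ext_iff.1 he).2
      refine Prod.ext ?_ (Prod.ext (hw1.trans hw1'.symm) e3)
      funext p
      show w.1 p = w'.1 p
      by_cases hp : p ∈ W
      · exact congrFun (congrArg Prod.fst he) ⟨p, hp⟩
      · have e1 : w.1 p = a0 := by
          by_contra hne; exact hp (hw2 p hne)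
        have e2 : w'.1 p = a0 := by
          by_contra hne; exact hp (hw2' p hne)
        rw [e1, e2]
    exact Set.toFinite _
  have hnz : ∀ g : G, nz (g • z) ∈ F0 := by
    intro g
    refine ⟨?_, fun p hp => ?_⟩
    · show (g • z).2.1⁻¹ * (g • z).2.1 = 1
      rw [inv_mul_cancel]
    · have := hz g (((g • z).2.1⁻¹)⁻¹ * p) hp
      rwa [inv_inv, inv_mul_cancel_left] at this
  haveI : Finite F0 := hF0
  haveI hq : Finite (G ⧸ N) := by
    refine Finite.of_injective (fun q : G ⧸ N => (⟨nz (q.out • z), hnz _⟩ : F0)) ?_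
    intro q q' he
    have he' : nz (q.out • z) = nz (q'.out • z) := congrArg Subtype.val he
    have h1 : q'.out • z = tr ((q'.out • z).2.1 * (q.out • z).2.1⁻¹) (q.out • z) := by
      conv_lhs => rw [← tr_nz (q'.out • z), ← he']
      rw [nz, tr_tr]
    rw [← q.out_eq', ← q'.out_eq', QuotientGroup.eq]
    refine ⟨(q'.out • z).2.1 * (q.out • z).2.1⁻¹, ?_⟩
    rw [mul_smul, inv_smul_eq_iff, tr_smul hM]
    exact h1
  haveI : N.FiniteIndex := Subgroup.finiteIndex_of_finite_quotient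
  have hhd : ∀ n : N, (n.1 • z) = tr (n.1 • z).2.1 z := by
    rintro ⟨n, k, hk⟩
    show n • z = tr (n • z).2.1 z
    rw [hk]
    show tr k z = tr (k * z.2.1) z
    rw [hz1, mul_one]
  let f : N →* H :=
    { toFun := fun n => (n.1 • z).2.1⁻¹
      map_one' := by
        show ((1 : G) • z).2.1⁻¹ = 1
        rw [one_smul, hz1, inv_one]
      map_mul' := by
        intro n m
        show ((n.1 * m.1) • z).2.1⁻¹ = (n.1 • z).2.1⁻¹ * (m.1 • z).2.1⁻¹
        rw [mul_smul]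
        have h1 := hhd m
        have h2 : (n.1 • m.1 • z).2.1 = (m.1 • z).2.1 * (n.1 • z).2.1 := by
          conv_lhs => rw [h1, tr_smul hM]
          rfl
        rw [h2, mul_inv_rev] }
  have hfin : Finite f.range := hH N (fp_of_finiteIndex G N) (fun x => by
    exact Submonoid.isOfFinOrder_coe.1 (hG x.1)) f
  have hsub : MulAction.orbit G z ⊆ Set.range (fun t : (G ⧸ N) × f.range =>
      t.1.out • tr t.2.1⁻¹ z) := by
    rintro _ ⟨g, rfl⟩
    have h1 : (QuotientGroup.mk g : G ⧸ N).out⁻¹ * g ∈ N := by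
      rw [← QuotientGroup.eq]
      exact Quotient.out_eq' _
    refine ⟨(QuotientGroup.mk g, ⟨f ⟨_, h1⟩, _, rfl⟩), ?_⟩
    show (QuotientGroup.mk g : G ⧸ N).out •
      tr ((((QuotientGroup.mk g : G ⧸ N).out⁻¹ * g) • z).2.1⁻¹)⁻¹ z = g • z
    rw [inv_inv, ← hhd ⟨_, h1⟩]
    show (QuotientGroup.mk g : G ⧸ N).out • ((QuotientGroup.mk g : G ⧸ N).out⁻¹ * g) • z = g • z
    rw [← mul_smul, mul_inv_cancel_left]
  exact (Set.finite_range _).subset hsub

theorem word_of (hM : MA (H := H) (A := A) (Q := Q) G S T) (g : G) :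
    ∃ u : List G, (∀ s ∈ u, s ∈ S ∨ s⁻¹ ∈ S) ∧ u.prod = g := by
  have hg : g ∈ Subgroup.closure S := by rw [hM.gen]; trivial
  induction hg using Subgroup.closure_induction with
  | mem s hs => exact ⟨[s], by simpa using Or.inl hs, by simp⟩
  | one => exact ⟨[], by simp, rfl⟩
  | mul a b _ _ iha ihb =>
    obtain ⟨u, hu, rfl⟩ := iha
    obtain ⟨v, hv, rfl⟩ := ihb
    refine ⟨u ++ v, fun s hs => ?_, List.prod_append⟩
    rcases List.mem_append.1 hs with h | h
    · exact hu s h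
    · exact hv s h
  | inv a _ ih =>
    obtain ⟨u, hu, rfl⟩ := ih
    refine ⟨(u.map fun s => s⁻¹).reverse, fun s hs => ?_, (List.prod_inv_reverse u).symm⟩
    rw [List.mem_reverse, List.mem_map] at hs
    obtain ⟨t, ht, rfl⟩ := hs
    rcases hu t ht with h | h
    · right; rwa [inv_inv]
    · left; exact h

theorem hop_tr (hM : MA (H := H) (A := A) (Q := Q) G S T) {l : ℕ} (k : H) {z w : Cf H A Q}
    (h : hop S l z w) : hop S l (tr k z) (tr k w) := by
  obtain ⟨u, h1, h2, rfl⟩ := h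
  exact ⟨u, h1, h2, tr_smul hM _ k z⟩

end

theorem r6 : R6 := by
  classical
  intro H _ _ hH A Q _ _ a0 G _ _ hG S T _ hM D
  let F0 : Set (Cf H A Q) := {w | w.2.1 = 1 ∧ ∀ p, w.1 p ≠ a0 → p ∈ T ^ D}
  have hF0 : Finite F0 := by
    refine Finite.of_injective (fun w : F0 => ((fun t : ↥(T ^ D) => w.1.1 t.1), w.1.2.2)) ?_
    rintro ⟨w, hw1, hw2⟩ ⟨w', hw1', hw2'⟩ he
    apply Subtype.ext
    have e3 : w.2.2 = w'.2.2 := (Prod.ext_iff.1 he).2
    refine Prod.ext ?_ (Prod.ext (hw1.trans hw1'.symm) e3)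
    funext p
    show w.1 p = w'.1 p
    by_cases hp : p ∈ T ^ D
    · exact congrFun (congrArg Prod.fst he) ⟨p, hp⟩
    · have e1 : w.1 p = a0 := by
        by_contra hne; exact hp (hw2 p hne)
      have e2 : w'.1 p = a0 := by
        by_contra hne; exact hp (hw2' p hne)
      rw [e1, e2]
  have key : ∀ z : F0, ∃ l : ℕ, (MulAction.orbit G z.1).encard ≤ l ∨
      ∃ w : Cf H A Q, hop S l z.1 w ∧ ∃ p, w.1 p ≠ a0 ∧ w.2.1⁻¹ * p ∉ T ^ D := by
    rintro ⟨z, hz1, hz2⟩
    by_cases h : ∃ (g : G) (p : H), (g • z).1 p ≠ a0 ∧ (g • z).2.1⁻¹ * p ∉ T ^ D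
    · obtain ⟨g, p, h1, h2⟩ := h
      obtain ⟨u, hu1, hu2⟩ := word_of hM g
      exact ⟨u.length, Or.inr ⟨g • z, ⟨u, hu1, le_rfl, by rw [hu2]⟩, p, h1, h2⟩⟩
    · push Not at h
      have hf := orbit_fin hH a0 hG hM (T ^ D) z hz1 h
      refine ⟨(MulAction.orbit G z).ncard, Or.inl ?_⟩
      rw [hf.cast_ncard_eq]
  choose l hl using key
  obtain ⟨B, hB⟩ := (Set.finite_range l).bddAbove
  refine ⟨B, fun z hz => ?_⟩
  have hz0 : nz z ∈ F0 := by
    refine ⟨?_, fun p hp => ?_⟩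
    · show z.2.1⁻¹ * z.2.1 = 1
      rw [inv_mul_cancel]
    · have := hz ((z.2.1⁻¹)⁻¹ * p) hp
      rwa [inv_inv, inv_mul_cancel_left] at this
  have hlB : l ⟨nz z, hz0⟩ ≤ B := hB ⟨_, rfl⟩
  rcases hl ⟨nz z, hz0⟩ with h | ⟨w, hw, p, hp1, hp2⟩
  · left
    have h1 : MulAction.orbit G z ⊆ tr z.2.1 '' MulAction.orbit G (nz z) := by
      rintro _ ⟨g, rfl⟩
      refine ⟨g • nz z, ⟨g, rfl⟩, ?_⟩
      rw [← tr_smul hM, tr_nz]
    refine (Set.encard_le_encard h1).trans ((Set.encard_image_le _ _).trans (h.trans ?_))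
    exact_mod_cast hlB
  · right
    refine ⟨tr z.2.1 w, ?_, z.2.1 * p, ?_, ?_⟩
    · have h1 := hop_tr hM z.2.1 hw
      rw [tr_nz] at h1
      obtain ⟨u, hu1, hu2, hu3⟩ := h1
      exact ⟨u, hu1, hu2.trans hlB, hu3⟩
    · show w.1 (z.2.1⁻¹ * (z.2.1 * p)) ≠ a0
      rwa [inv_mul_cancel_left]
    · show (z.2.1 * w.2.1)⁻¹ * (z.2.1 * p) ∉ T ^ D
      rw [mul_inv_rev, mul_assoc, inv_mul_cancel_left]
      exact hp2

end Vale.Agent.P192.R2.H102.RR
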